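import Vale.Agent.P087.Defs

namespace Vale.Agent.P087

open scoped InnerProductSpace ENNReal ComplexConjugate
open Finset

section words
variable {ι : Type} {A : Type} [Monoid A]

@[simp] lemma word_nil (X : ι → A) : word X [] = 1 := rfl
@[simp] lemma word_cons (X : ι → A) (a : ι) (w : List ι) : word X (a :: w) = X a * word X w := by
  simp [word]
lemma word_append (X : ι → A) (u v : List ι) : word X (u ++ v) = word X u * word X v := by
  simp [word]

lemma map_word {B F : Type} [Monoid B] [FunLike F A B] [MonoidHomClass F A B] (f : F)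
    (X : ι → A) (w : List ι) : f (word X w) = word (fun j => f (X j)) w := by
  induction w with
  | nil => simp
  | cons a w ih => simp [ih]

lemma star_word [StarMul A] (X : ι → A) (hX : ∀ j, star (X j) = X j) (w : List ι) :
    star (word X w) = word X w.reverse := by
  induction w with
  | nil => simp
  | cons a w ih => simp [ih, word_append, hX]

end words

section dsum
variable {ι : Type} [DecidableEq ι] {E : Type} [AddCommMonoid E]

/-- sum over the occurrences of a letter -/
def dsum (j : ι) (f : List ι → List ι → E) (w : List ι) : E :=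
  ∑ l : Fin w.length, if w.get l = j then f (w.take l) (w.drop (l + 1)) else 0

@[simp] lemma dsum_nil (j : ι) (f : List ι → List ι → E) : dsum j f [] = 0 := by simp [dsum]

lemma dsum_cons (j : ι) (f : List ι → List ι → E) (a : ι) (w : List ι) :
    dsum j f (a :: w) = (if a = j then f [] w else 0) + dsum j (fun u v => f (a :: u) v) w := by
  unfold dsum
  refine (Fin.sum_univ_succ (n := w.length) _).trans ?_
  simp

lemma map_dsum {F G : Type} [AddCommMonoid F] [FunLike G E F] [AddMonoidHomClass G E F] (g : G)
    (j : ι) (f : List ι → List ι → E) (w : List ι) :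
    g (dsum j f w) = dsum j (fun u v => g (f u v)) w := by
  unfold dsum
  rw [map_sum]
  refine sum_congr rfl fun l _ => ?_
  split_ifs <;> simp

lemma dsum_sum {κ : Type} (s : Finset κ) (j : ι) (f : κ → List ι → List ι → E) (w : List ι) :
    ∑ c ∈ s, dsum j (f c) w = dsum j (fun u v => ∑ c ∈ s, f c u v) w := by
  unfold dsum
  rw [sum_comm]
  refine sum_congr rfl fun l _ => ?_
  split_ifs <;> simp

lemma tendsto_dsum {β : Type} {F : Filter β} [TopologicalSpace E] [ContinuousAdd E] (j : ι)
    (f : β → List ι → List ι → E) (g : List ι → List ι → E) (w : List ι)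
    (h : ∀ u v, u.length + v.length + 1 = w.length → Filter.Tendsto (fun k => f k u v) F (nhds (g u v))) :
    Filter.Tendsto (fun k => dsum j (f k) w) F (nhds (dsum j g w)) := by
  unfold dsum
  refine tendsto_finsetSum _ fun l _ => ?_
  split_ifs
  · refine h _ _ ?_
    have := l.2
    simp; omega
  · exact tendsto_const_nhds

end dsum

section ssum
variable {ι : Type} {E : Type} [AddCommMonoid E]

/-- sum over the splittings of a word -/
def ssum (f : List ι → List ι → E) (w : List ι) : E :=
  ∑ l ∈ range (w.length + 1), f (w.take l) (w.drop l)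

@[simp] lemma ssum_nil (f : List ι → List ι → E) : ssum f [] = f [] [] := by simp [ssum]

lemma ssum_cons (f : List ι → List ι → E) (a : ι) (w : List ι) :
    ssum f (a :: w) = f [] (a :: w) + ssum (fun u v => f (a :: u) v) w := by
  unfold ssum
  rw [List.length_cons, sum_range_succ', add_comm]
  simp

lemma ssum_add (f g : List ι → List ι → E) (w : List ι) :
    ssum (fun u v => f u v + g u v) w = ssum f w + ssum g w := by
  simp [ssum, sum_add_distrib]

lemma map_ssum {F G : Type} [AddCommMonoid F] [FunLike G E F] [AddMonoidHomClass G E F] (g : G)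
    (f : List ι → List ι → E) (w : List ι) :
    g (ssum f w) = ssum (fun u v => g (f u v)) w := by
  simp [ssum, map_sum]

lemma ssum_assoc (g : List ι → List ι → List ι → E) (w : List ι) :
    ssum (fun u w' => ssum (fun v x => g u v x) w') w
      = ssum (fun y x => ssum (fun u v => g u v x) y) w := by
  induction w generalizing g with
  | nil => simp
  | cons a w ih =>
    rw [ssum_cons, ssum_cons, ssum_cons, ih]
    simp only [ssum_cons, ssum_nil, ssum_add, add_assoc]

lemma ssum_congr {f g : List ι → List ι → E} {w : List ι}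
    (h : ∀ u v, u.length ≤ w.length → v.length ≤ w.length → f u v = g u v) :
    ssum f w = ssum g w := by
  unfold ssum
  refine sum_congr rfl fun l _ => h _ _ ?_ ?_ <;> simp

lemma ssum_first (f : List ι → List ι → E) (w : List ι) (h : ∀ a u v, f (a :: u) v = 0) :
    ssum f w = f [] w := by
  cases w with
  | nil => simp
  | cons a w => rw [ssum_cons]; simp [h, ssum]

lemma ssum_last (f : List ι → List ι → E) (w : List ι) (h : ∀ a u v, f u (a :: v) = 0) :
    ssum f w = f w [] := by
  induction w generalizing f with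
  | nil => simp
  | cons a w ih => rw [ssum_cons, h, zero_add, ih _ fun b u v => h b _ v]

end ssum

section W
variable (ι : Type) [Fintype ι]

omit [Fintype ι] in
/-- cons as an embedding -/
def consE : ι × List ι ↪ List ι := ⟨fun p => p.1 :: p.2, fun p q h => by
      simp only [List.cons.injEq] at h; exact Prod.ext h.1 h.2⟩

omit [Fintype ι] in
@[simp] lemma consE_apply (a : ι) (w : List ι) : consE ι (a, w) = a :: w := rfl

/-- the words of length `k` -/
def Wd : ℕ → Finset (List ι)
  | 0 => {[]}
  | k + 1 => ((univ : Finset ι) ×ˢ Wd k).map (consE ι)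

variable {ι} {E : Type} [AddCommMonoid E]

lemma sum_Wd_zero (f : List ι → E) : ∑ w ∈ Wd ι 0, f w = f [] := by simp [Wd]

lemma sum_Wd_succ (k : ℕ) (f : List ι → E) :
    ∑ w ∈ Wd ι (k + 1), f w = ∑ i, ∑ w ∈ Wd ι k, f (i :: w) := by
  simp [Wd, sum_product]

lemma mem_Wd {k : ℕ} {w : List ι} : w ∈ Wd ι k ↔ w.length = k := by
  induction k generalizing w with
  | zero => simp [Wd]
  | succ k ih =>
    cases w with
    | nil => simp [Wd]
    | cons a w => simp [Wd, ih]

lemma sum_Wd_add (l j : ℕ) (f : List ι → E) :
    ∑ w ∈ Wd ι (l + j), f w = ∑ u ∈ Wd ι l, ∑ v ∈ Wd ι j, f (u ++ v) := by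
  induction l generalizing f with
  | zero => simp [sum_Wd_zero]
  | succ l ih =>
    rw [show l + 1 + j = (l + j) + 1 by ring, sum_Wd_succ, sum_Wd_succ]
    simp [ih]

end W

section tau
variable {H : Type} [NormedAddCommGroup H] [InnerProductSpace ℂ H] [CompleteSpace H] (Ω : H)

omit [CompleteSpace H] in
/-- the state as a linear map -/
noncomputable def tauL : (H →L[ℂ] H) →ₗ[ℂ] ℂ where
  toFun := tau Ω
  map_add' a b := by simp [tau]
  map_smul' c a := by simp [tau]

omit [CompleteSpace H] in
@[simp] lemma tauL_apply (a : H →L[ℂ] H) : tauL Ω a = tau Ω a := rfl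

omit [CompleteSpace H] in
lemma tau_add (a b : H →L[ℂ] H) : tau Ω (a + b) = tau Ω a + tau Ω b := (tauL Ω).map_add a b
omit [CompleteSpace H] in
lemma tau_sub (a b : H →L[ℂ] H) : tau Ω (a - b) = tau Ω a - tau Ω b := (tauL Ω).map_sub a b
omit [CompleteSpace H] in
lemma tau_smul (c : ℂ) (a : H →L[ℂ] H) : tau Ω (c • a) = c * tau Ω a := (tauL Ω).map_smul c a
omit [CompleteSpace H] in
lemma tau_zero : tau Ω 0 = 0 := (tauL Ω).map_zero
omit [CompleteSpace H] in
lemma tau_one (h : ‖Ω‖ = 1) : tau Ω 1 = 1 := by simp [tau, h]

lemma tau_star (a : H →L[ℂ] H) : tau Ω (star a) = conj (tau Ω a) := by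
  simp [tau, ContinuousLinearMap.star_eq_adjoint, ContinuousLinearMap.adjoint_inner_right]

lemma inner_star_left (a : H →L[ℂ] H) (x y : H) : ⟪star a x, y⟫_ℂ = ⟪x, a y⟫_ℂ := by
  rw [ContinuousLinearMap.star_eq_adjoint, ContinuousLinearMap.adjoint_inner_left]

lemma inner_star_right (a : H →L[ℂ] H) (x y : H) : ⟪x, star a y⟫_ℂ = ⟪a x, y⟫_ℂ := by
  rw [ContinuousLinearMap.star_eq_adjoint, ContinuousLinearMap.adjoint_inner_right]

lemma norm_star' (a : H →L[ℂ] H) : ‖star a‖ = ‖a‖ := norm_star a

end tau

end Vale.Agent.P087
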