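import Vale.Agent.P087.Fock

namespace Vale.Agent.P087

open scoped InnerProductSpace ENNReal ComplexConjugate
open Finset

section dual
variable {H : Type} [NormedAddCommGroup H] [InnerProductSpace ℂ H] [CompleteSpace H]
variable {ι : Type} [DecidableEq ι]

omit [CompleteSpace H] in
lemma tauDiff_eq (Ω : H) (Z : ι → H →L[ℂ] H) (j : ι) (w : List ι) :
    tauDiff Ω Z j w = dsum j (fun u v => tau Ω (word Z u) * tau Ω (word Z v)) w := rfl

lemma word_comm {R : Type} [Ring R] (Z : ι → R) (C P : R) (j : ι)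
    (hC : ∀ i, Z i * C = C * Z i + if i = j then P else 0) (w : List ι) :
    word Z w * C = C * word Z w + dsum j (fun u v => word Z u * P * word Z v) w := by
  induction w with
  | nil => simp
  | cons a w ih =>
    rw [word_cons, mul_assoc, ih, mul_add, ← mul_assoc, hC, dsum_cons]
    have := map_dsum (AddMonoidHom.mulLeft (Z a)) j (fun u v => word Z u * P * word Z v) w
    simp only [AddMonoidHom.coe_mulLeft] at this
    rw [this]
    simp only [word_cons, word_nil, mul_assoc, add_mul, one_mul, add_assoc]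
    split_ifs <;> simp

lemma dual_word (Ω : H) (Z : ι → H →L[ℂ] H) (C P : H →L[ℂ] H) (hP : ∀ x, P x = ⟪Ω, x⟫_ℂ • Ω)
    (j : ι) (hC : ∀ i, Z i * C = C * Z i + if i = j then P else 0) (h0 : star C Ω = 0)
    (w : List ι) : ⟪Ω, word Z w (C Ω)⟫_ℂ = tauDiff Ω Z j w := by
  have h := congrArg (tauL Ω) (word_comm Z C P j hC w)
  rw [map_add, map_dsum] at h
  have h1 : tauL Ω (C * word Z w) = 0 := by
    change ⟪Ω, C (word Z w Ω)⟫_ℂ = 0
    rw [← inner_star_left, h0, inner_zero_left]
  rw [h1, zero_add] at h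
  rw [tauDiff_eq]
  refine h.trans ?_
  congr 1
  funext u v
  change ⟪Ω, word Z u (P (word Z v Ω))⟫_ℂ = _
  rw [hP, map_smul, inner_smul_right, mul_comm]; rfl

end dual

variable {A : Type} [DecidableEq A]

/-- algebra generated by a set of letters -/
noncomputable def alg (B : Set A) : Subalgebra ℂ (FH A →L[ℂ] FH A) := Algebra.adjoin ℂ (sc '' B)

/-- vacuum vectors for a set of letters -/
def Vac (B : Set A) (η : FH A) : Prop := ∀ b ∈ B, star (lc b) η = 0

lemma vac_Om (B : Set A) : Vac B (Om A) := fun b _ => lcs_Om b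

lemma sc_mem_alg {B : Set A} {b : A} (hb : b ∈ B) : sc b ∈ alg B :=
  Algebra.subset_adjoin ⟨b, hb, rfl⟩

/-- span of creation words -/
noncomputable def spB (B : Set A) : Submodule ℂ (FH A →L[ℂ] FH A) :=
  Submodule.span ℂ {y | ∃ w : List A, (∀ a ∈ w, a ∈ B) ∧ y = word lc w}

lemma vac_rep {B : Set A} {x : FH A →L[ℂ] FH A} (hx : x ∈ alg B) :
    ∀ y ∈ spB B, ∃ y' ∈ spB B, ∀ η, Vac B η → x (y η) = y' η := by
  induction hx using Algebra.adjoin_induction with
  | mem x hx =>
    obtain ⟨b, hb, rfl⟩ := hx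
    intro y hy
    induction hy using Submodule.span_induction with
    | mem y hy =>
      obtain ⟨w, hw, rfl⟩ := hy
      have h1 : word lc (b :: w) ∈ spB B :=
        Submodule.subset_span ⟨_, by simpa [hb] using hw, rfl⟩
      cases w with
      | nil => exact ⟨_, h1, fun η hη => by simp [sc, hη b hb]⟩
      | cons c w =>
        have h2 : word lc w ∈ spB B :=
          Submodule.subset_span ⟨_, fun a ha => hw a (by simp [ha]), rfl⟩
        refine ⟨word lc (b :: c :: w) + if b = c then word lc w else 0, add_mem h1 ?_,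
          fun η _ => ?_⟩
        · split_ifs; exacts [h2, zero_mem _]
        · split_ifs with h <;> simp [sc, lcs_lc_apply, h]
    | zero => exact ⟨0, zero_mem _, by simp⟩
    | add y z _ _ hy hz =>
      obtain ⟨y', h1, h2⟩ := hy
      obtain ⟨z', h3, h4⟩ := hz
      exact ⟨y' + z', add_mem h1 h3, fun η hη => by simp [h2 η hη, h4 η hη]⟩
    | smul c y _ hy =>
      obtain ⟨y', h1, h2⟩ := hy
      exact ⟨c • y', Submodule.smul_mem _ _ h1, fun η hη => by simp [h2 η hη]⟩
  | algebraMap c =>
    intro y hy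
    exact ⟨c • y, Submodule.smul_mem _ _ hy, fun η _ => by simp [Algebra.algebraMap_eq_smul_one]⟩
  | add x z _ _ hx hz =>
    intro y hy
    obtain ⟨y', h1, h2⟩ := hx y hy
    obtain ⟨z', h3, h4⟩ := hz y hy
    exact ⟨y' + z', add_mem h1 h3, fun η hη => by simp [h2 η hη, h4 η hη]⟩
  | mul x z _ _ hx hz =>
    intro y hy
    obtain ⟨z', h3, h4⟩ := hz y hy
    obtain ⟨y', h1, h2⟩ := hx z' h3
    exact ⟨y', h1, fun η hη => by simp [h2 η hη, h4 η hη]⟩

lemma inner_Om_lc (b : A) (ξ : FH A) : ⟪Om A, lc b ξ⟫_ℂ = 0 := by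
  rw [← inner_star_left, lcs_Om, inner_zero_left]

lemma vac_main {B : Set A} {E : Type} [AddCommGroup E] [Module ℂ E] (φ : FH A →ₗ[ℂ] E)
    (hφ : ∀ b ∈ B, ∀ ξ, φ (lc b ξ) = 0) {x : FH A →L[ℂ] FH A} (hx : x ∈ alg B) {η : FH A}
    (hη : Vac B η) : φ (x η) = tau (Om A) x • φ η := by
  obtain ⟨y, hy, h⟩ := vac_rep hx 1 (Submodule.subset_span ⟨[], by simp, rfl⟩)
  have e1 := h η hη
  have e2 := h _ (vac_Om B)
  simp only [ContinuousLinearMap.one_apply] at e1 e2
  rw [e1, tau, e2]
  clear h e1 e2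
  induction hy using Submodule.span_induction with
  | mem y hy =>
    obtain ⟨w, hw, rfl⟩ := hy
    cases w with
    | nil => simp [norm_Om]
    | cons c w => simp [hφ c (hw c (by simp)), inner_Om_lc]
  | zero => simp
  | add y z _ _ hy hz => simp [hy, hz, inner_add_right, add_smul]
  | smul c y _ hy => simp [hy, smul_smul]

lemma vac_lcs {B : Set A} {c : A} (hc : c ∉ B) {x : FH A →L[ℂ] FH A} (hx : x ∈ alg B) {η : FH A}
    (hη : Vac B η) : star (lc c) (x η) = tau (Om A) x • star (lc c) η :=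
  vac_main (star (lc c)).toLinearMap (fun b hb ξ => by
    have : c ≠ b := fun h => hc (h ▸ hb)
    simp [lcs_lc_apply, this]) hx hη

lemma vac_inner {B : Set A} {x : FH A →L[ℂ] FH A} (hx : x ∈ alg B) {η : FH A}
    (hη : Vac B η) : ⟪Om A, x η⟫_ℂ = tau (Om A) x * ⟪Om A, η⟫_ℂ :=
  vac_main (innerSL ℂ (Om A)).toLinearMap (fun b _ ξ => by simp [inner_Om_lc]) hx hη

lemma isFree_alg {κ : Type} (B : κ → Set A) (hB : ∀ p q, p ≠ q → ∀ a ∈ B p, a ∉ B q)
    (𝒜 : κ → Subalgebra ℂ (FH A →L[ℂ] FH A)) (h𝒜 : ∀ p, 𝒜 p ≤ alg (B p)) :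
    IsFree (Om A) 𝒜 := by
  have key : ∀ (l : List (κ × (FH A →L[ℂ] FH A))) (p : κ × (FH A →L[ℂ] FH A)),
      (p :: l).IsChain (fun p q => p.1 ≠ q.1) →
      (∀ q ∈ p :: l, q.2 ∈ 𝒜 q.1 ∧ tau (Om A) q.2 = 0) →
      Vac (B p.1) ((l.map Prod.snd).prod (Om A)) := by
    intro l
    induction l with
    | nil => intro p _ _; simpa using vac_Om _
    | cons q l ih =>
      intro p hc hl b hb
      rw [List.isChain_cons_cons] at hc
      have hq := hl q (by simp)
      have := ih q hc.2 fun r hr => hl r (List.mem_cons_of_mem _ hr)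
      rw [List.map_cons, List.prod_cons, ContinuousLinearMap.mul_apply,
        vac_lcs (hB _ _ hc.1 b hb) (h𝒜 _ hq.1) this, hq.2, zero_smul]
  intro l hl hc h
  obtain ⟨p, l, rfl⟩ := List.exists_cons_of_ne_nil hl
  have hp := h p (by simp)
  rw [tau, List.map_cons, List.prod_cons, ContinuousLinearMap.mul_apply,
    vac_inner (h𝒜 _ hp.1) (key l p hc h), hp.2, zero_mul]

lemma tau_snoc (w : List A) (a : A) :
    tau (Om A) (word sc w * sc a) = tauDiff (Om A) sc a w := by
  rw [← dual_word (Om A) sc (rc a) (Pv A) Pv_apply a (fun i => sc_rc i a) (rcs_Om a), tau,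
    ContinuousLinearMap.mul_apply, sc_Om, rc_Om]

lemma word_mem_MF {ι : Type} (X : ι → FH A →L[ℂ] FH A) (hX : ∀ j, X j ∈ MF A) (w : List ι) :
    word X w ∈ MF A := by
  induction w with
  | nil => exact one_mem _
  | cons a w ih => rw [word_cons]; exact mul_mem (hX a) ih

lemma tau_cons (w : List A) (a : A) :
    tau (Om A) (word sc (a :: w)) = tauDiff (Om A) sc a w := by
  rw [word_cons, MF_trace (sc_mem_MF a) (word_mem_MF _ sc_mem_MF w), tau_snoc]

lemma sum_range_par (g : ℕ → ℂ) (p : ℕ) :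
    ∑ l ∈ range (2 * p), g l = ∑ i ∈ range p, (g (2 * i) + g (2 * i + 1)) := by
  induction p with
  | zero => simp
  | succ p ih => rw [mul_add, mul_one, sum_range_succ, sum_range_succ, ih, sum_range_succ, add_assoc]

lemma semi_sc (a : A) : IsSemicircular (Om A) (sc a) := by
  refine ⟨star_sc a, ?_⟩
  have hw : ∀ n, word sc (List.replicate n a) = sc a ^ n := fun n => by simp [word]
  have hrec : ∀ n, tau (Om A) (sc a ^ (n + 1))
      = ∑ l ∈ range n, tau (Om A) (sc a ^ l) * tau (Om A) (sc a ^ (n - (l + 1))) := by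
    intro n
    rw [pow_succ, ← hw, tau_snoc, tauDiff, ← Fin.sum_univ_eq_sum_range
      (fun l => tau (Om A) (sc a ^ l) * tau (Om A) (sc a ^ (n - (l + 1))))]
    refine Fintype.sum_equiv (finCongr (by simp)) _ _ fun l => ?_
    have := l.2
    simp only [List.length_replicate] at this
    simp [hw, min_eq_left this.le]
  intro p
  induction p using Nat.strong_induction_on with
  | _ p ih =>
    constructor
    · cases p with
      | zero => simp [tau_one _ norm_Om]
      | succ p =>
        rw [show 2 * (p + 1) = (2 * p + 1) + 1 by ring, hrec, sum_range_succ, sum_range_par,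
          catalan_succ, Nat.cast_sum, Fin.sum_univ_eq_sum_range
            (fun i => ((catalan i * catalan (p - i) : ℕ) : ℂ)), sum_range_succ]
        congr 1
        · refine sum_congr rfl fun i hi => ?_
          have := mem_range.1 hi
          rw [(ih i (by omega)).1, (ih i (by omega)).2,
            show 2 * p + 1 - (2 * i + 1) = 2 * (p - i) by omega, (ih (p - i) (by omega)).1]
          simp
        · simp [(ih p (by omega)).1, tau_one _ norm_Om]
    · rw [hrec, sum_range_par]
      refine sum_eq_zero fun i hi => ?_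
      have := mem_range.1 hi
      rw [(ih i (by omega)).2, show 2 * p - (2 * i + 1) = 2 * (p - i - 1) + 1 by omega,
        (ih (p - i - 1) (by omega)).2]
      simp

end Vale.Agent.P087
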