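import Vale.Agent.P087.LowDeg
import Vale.Agent.P087.Free

namespace Vale.Agent.P087

open scoped InnerProductSpace ENNReal ComplexConjugate
open Finset Sum

section row
variable {H : Type} [NormedAddCommGroup H] [InnerProductSpace ℂ H]
variable {α β : Type} [Fintype α] [Fintype β]

/-- row norm bound -/
def Row (T : α → H →L[ℂ] H) (c : ℝ) : Prop :=
  ∀ ξ : α → H, ‖∑ a, T a (ξ a)‖ ≤ c * Real.sqrt (∑ a, ‖ξ a‖ ^ 2)

lemma Row.mul {T : α → H →L[ℂ] H} {T' : β → H →L[ℂ] H} {c c' : ℝ} (h : Row T c) (h' : Row T' c')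
    (hc : 0 ≤ c) (hc' : 0 ≤ c') : Row (fun p : α × β => T p.1 * T' p.2) (c * c') := by
  intro ξ
  simp only [Fintype.sum_prod_type, ContinuousLinearMap.mul_apply, ← map_sum]
  refine (h _).trans ?_
  rw [mul_assoc]
  refine mul_le_mul_of_nonneg_left (le_mul_sqrt hc' ?_) hc
  rw [Real.sq_sqrt (by positivity), mul_sum]
  exact sum_le_sum fun i _ => sq_le_of_sqrt (norm_nonneg _) (by positivity) (h' _)

lemma Row.add {T T' : α → H →L[ℂ] H} {c c' : ℝ} (h : Row T c) (h' : Row T' c') :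
    Row (fun a => T a + T' a) (c + c') := by
  intro ξ
  simp only [ContinuousLinearMap.add_apply, sum_add_distrib, add_mul]
  exact (norm_add_le _ _).trans (add_le_add (h _) (h' _))

lemma Row.smul {T : α → H →L[ℂ] H} {c : ℝ} (h : Row T c) {r : ℝ} (hr : 0 ≤ r) :
    Row (fun a => (r : ℂ) • T a) (r * c) := by
  intro ξ
  simp only [ContinuousLinearMap.smul_apply, ← smul_sum, norm_smul, mul_assoc, Complex.norm_real,
    Real.norm_of_nonneg hr]
  exact mul_le_mul_of_nonneg_left (h _) hr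

lemma Row.equiv {T : α → H →L[ℂ] H} {c : ℝ} (h : Row T c) (e : β ≃ α) :
    Row (fun b => T (e b)) c := by
  intro ξ
  have := h (fun a => ξ (e.symm a))
  rw [← e.sum_comp, ← e.sum_comp] at this
  simpa using this

lemma Row.mono {T : α → H →L[ℂ] H} {c c' : ℝ} (h : Row T c) (hc : c ≤ c') : Row T c' :=
  fun ξ => (h ξ).trans (mul_le_mul_of_nonneg_right hc (Real.sqrt_nonneg _))

lemma Row.sum {T : α ⊕ β → H →L[ℂ] H} {c c' : ℝ} (h : Row (fun a => T (inl a)) c)
    (h' : Row (fun a => T (inr a)) c') (hc : 0 ≤ c) (hc' : 0 ≤ c') : Row T (c + c') := by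
  intro ξ
  rw [Fintype.sum_sum_type, Fintype.sum_sum_type, add_mul]
  refine (norm_add_le _ _).trans (add_le_add ((h _).trans ?_) ((h' _).trans ?_))
  · exact mul_le_mul_of_nonneg_left (Real.sqrt_le_sqrt (le_add_of_nonneg_right (by positivity))) hc
  · exact mul_le_mul_of_nonneg_left (Real.sqrt_le_sqrt (le_add_of_nonneg_left (by positivity))) hc'

lemma row_of_norm {T : α → H →L[ℂ] H} (h : ∀ a, ‖T a‖ ≤ 1) {c : ℝ} (hc : 0 ≤ c)
    (hcard : (Fintype.card α : ℝ) ≤ c ^ 2) : Row T c := by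
  intro ξ
  refine le_mul_sqrt hc ?_
  have h1 := cs_sum univ (fun _ => (1 : ℂ)) (fun a => T a (ξ a))
  simp only [one_smul, norm_one, one_pow, sum_const, card_univ, nsmul_eq_mul, mul_one] at h1
  refine h1.trans (mul_le_mul hcard (sum_le_sum fun a _ => ?_) (by positivity) (by positivity))
  exact pow_le_pow_left₀ (norm_nonneg _) (((T a).le_of_opNorm_le (h a) _).trans (by simp)) 2

variable {A : Type} [DecidableEq A]

lemma row_lc {f : α → A} (hf : Function.Injective f) : Row (fun a => lc (f a)) 1 := by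
  classical
  intro ξ
  refine le_mul_sqrt zero_le_one (le_of_eq ?_)
  have : ⟪∑ a, lc (f a) (ξ a), ∑ a, lc (f a) (ξ a)⟫_ℂ = ((∑ a, ‖ξ a‖ ^ 2 : ℝ) : ℂ) := by
    rw [sum_inner]
    push_cast
    refine sum_congr rfl fun a _ => ?_
    rw [← inner_star_right, map_sum]
    simp [lcs_lc_apply, hf.eq_iff]
  rw [inner_self_eq_norm_sq_to_K] at this
  rw [one_pow, one_mul]
  apply Complex.ofReal_injective
  rw [← this]; simp

lemma row_st {f : α → A} (hf : Function.Injective f) {q : ℝ} (hq : 1 ≤ q)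
    (hcard : (Fintype.card α : ℝ) ≤ q ^ 4) : Row (fun a => st q (f a)) (2 * q) := by
  have h1 := (row_lc hf).smul (r := q) (by linarith)
  have h2 := (row_of_norm (T := fun a => star (lc (f a))) (fun a => by
    rw [norm_star']; exact norm_lc _) (c := q ^ 2) (by positivity) (by nlinarith)).smul
    (r := q⁻¹) (by positivity)
  refine (h1.add h2).mono (le_of_eq ?_)
  field_simp; ring

end row

/-- index set -/
abbrev JJ (m : ℕ) := Fin m ⊕ (Fin m × Fin m × Fin m)

/-- alphabet -/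
abbrev AA (m : ℕ) := JJ m ⊕ JJ m

variable {m : ℕ}

/-- hidden letters -/
def hid (i : Fin m) : AA m := inl (inl i)

lemma hid_inj : Function.Injective (hid : Fin m → AA m) := fun _ _ h => by simpa [hid] using h

/-- the symmetrised cubic -/
def cub {R : Type} [Ring R] (s : Fin m → R) (v : Fin m × Fin m × Fin m) : R :=
  s v.1 * s v.2.1 * s v.2.2 + s v.2.2 * s v.2.1 * s v.1

/-- the signal -/
def sig {R : Type} [Ring R] (s : Fin m → R) : JJ m → R
  | inl i => s i
  | inr v => cub s v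

/-- the shear -/
def shear {R : Type} [Ring R] (u : JJ m → R) : JJ m → R
  | inl i => u (inl i)
  | inr v => cub (fun i => u (inl i)) v + u (inr v)

/-- the tuple -/
noncomputable def XX (m : ℕ) : JJ m → FH (AA m) →L[ℂ] FH (AA m) := shear fun j => sc (inl j)

/-- the semicircular family -/
noncomputable def SS (m : ℕ) (j : JJ m) : FH (AA m) →L[ℂ] FH (AA m) := sc (inr j)

/-- the signal operators -/
noncomputable def YY (m : ℕ) : JJ m → FH (AA m) →L[ℂ] FH (AA m) := sig fun i => sc (hid i)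

/-- built in noise -/
def al : JJ m → ℝ
  | inl _ => 0
  | inr _ => 1

/-- noise level -/
noncomputable def sg (t : ℝ) (j : JJ m) : ℝ := Real.sqrt (al j + t)

/-- coefficients -/
noncomputable def ca (t : ℝ) (j : JJ m) : ℂ := ((al j / sg t j : ℝ) : ℂ)

/-- coefficients -/
noncomputable def cb (t : ℝ) (j : JJ m) : ℂ := ((Real.sqrt t / sg t j : ℝ) : ℂ)

/-- inverse noise level -/
noncomputable def ci (t : ℝ) (j : JJ m) : ℂ := (((sg t j)⁻¹ : ℝ) : ℂ)

/-- combined creation -/
noncomputable def cre (c : AA m → FH (AA m) →L[ℂ] FH (AA m)) (t : ℝ) (j : JJ m) :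
    FH (AA m) →L[ℂ] FH (AA m) := ca t j • c (inl j) + cb t j • c (inr j)

lemma al_nonneg (j : JJ m) : 0 ≤ al j := by cases j <;> simp [al]
lemma al_sq (j : JJ m) : al j * al j = al j := by cases j <;> simp [al]

lemma XX_eq (j : JJ m) : XX m j = YY m j + (al j : ℂ) • sc (inl j) := by
  cases j <;> simp [XX, YY, shear, sig, al, hid]

lemma star_cub {R : Type} [Ring R] [StarRing R] {s : Fin m → R} (hs : ∀ i, star (s i) = s i)
    (v : Fin m × Fin m × Fin m) : star (cub s v) = cub s v := by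
  simp [cub, hs, mul_assoc, add_comm]

lemma star_YY (j : JJ m) : star (YY m j) = YY m j := by
  cases j with
  | inl i => exact star_sc _
  | inr v => exact star_cub (fun _ => star_sc _) v

lemma star_XX (j : JJ m) : star (XX m j) = XX m j := by
  simp [XX_eq, star_YY, star_sc]

lemma YY_mem {S : Subalgebra ℂ (FH (AA m) →L[ℂ] FH (AA m))} (h : ∀ i, sc (hid i) ∈ S) (j : JJ m) :
    YY m j ∈ S := by
  cases j with
  | inl i => exact h i
  | inr v => exact add_mem (mul_mem (mul_mem (h _) (h _)) (h _)) (mul_mem (mul_mem (h _) (h _)) (h _))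

lemma YY_alg (j : JJ m) : YY m j ∈ alg (Set.range hid) := YY_mem (fun i => sc_mem_alg (Set.mem_range_self i)) j

lemma YY_MF (j : JJ m) : YY m j ∈ MF (AA m) :=
  YY_mem (S := (MF (AA m)).toStarSubalgebra.toSubalgebra) (fun _ => sc_mem_MF _) j

lemma XX_MF (j : JJ m) : XX m j ∈ MF (AA m) := by
  rw [XX_eq]
  exact add_mem (YY_MF j) ((MF (AA m)).toStarSubalgebra.smul_mem (sc_mem_MF _) _)

lemma free_XS : IsFree (Om (AA m)) (algs (XX m) (SS m)) := by
  refine isFree_alg (fun o => match o with | none => Set.range inl | some j => {inr j}) ?_ _ ?_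
  · rintro (_ | p) (_ | q) h a <;> simp only [Set.mem_range, Set.mem_singleton_iff, forall_exists_index]
    all_goals first | exact absurd rfl h | (rintro x rfl; simp) | (rintro rfl; simpa using h)
  · rintro (_ | j)
    · refine Algebra.adjoin_le ?_
      rintro _ ⟨j, rfl⟩
      rw [XX_eq]
      exact add_mem (YY_mem (fun i => sc_mem_alg (Set.mem_range_self (f := inl) (inl i))) j)
        (Subalgebra.smul_mem _ (sc_mem_alg (Set.mem_range_self _)) _)
    · exact Algebra.adjoin_le (by rintro _ rfl; exact sc_mem_alg rfl)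

lemma norm_mul3 {R : Type} [NormedRing R] {a b c : R} (ha : ‖a‖ ≤ 2) (hb : ‖b‖ ≤ 2) (hc : ‖c‖ ≤ 2) :
    ‖a * b * c‖ ≤ 8 := by
  have h1 : ‖a * b‖ ≤ 4 := (norm_mul_le _ _).trans (by nlinarith [norm_nonneg a, norm_nonneg b])
  exact (norm_mul_le _ _).trans (by nlinarith [norm_nonneg (a * b), norm_nonneg c])

lemma norm_YY (j : JJ m) : ‖YY m j‖ ≤ 16 := by
  cases j with
  | inl i => exact (norm_sc _).trans (by norm_num)
  | inr v =>
    exact (norm_add_le _ _).trans (by
      linarith [norm_mul3 (norm_sc (hid v.1)) (norm_sc (hid v.2.1)) (norm_sc (hid v.2.2)),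
        norm_mul3 (norm_sc (hid v.2.2)) (norm_sc (hid v.2.1)) (norm_sc (hid v.1))])

lemma sc3_Om {A : Type} [DecidableEq A] (x y z : A) : (sc x * sc y * sc z) (Om A)
    = ev [x, y, z] + (if x = y then ev [z] else 0) + (if y = z then ev [x] else 0) := by
  simp only [ContinuousLinearMap.mul_apply, sc_Om]
  by_cases h1 : x = y <;> by_cases h2 : y = z <;> simp [sc, h1, h2]
  abel

lemma tau_YY (j : JJ m) : tau (Om (AA m)) (YY m j) = 0 := by
  cases j with
  | inl i => simp [tau, YY, sig, sc_Om, Om, inner_ev]; simp [sc, inner_ev]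
  | inr v =>
    simp only [tau, YY, sig, cub, ContinuousLinearMap.add_apply, sc3_Om]
    split_ifs <;> simp [Om, inner_add_right, inner_ev]

lemma one_le_YY (v : Fin m × Fin m × Fin m) : 1 ≤ ‖YY m (inr v) (Om _)‖ := by
  have h := norm_inner_le_norm (𝕜 := ℂ) (ev [hid v.1, hid v.2.1, hid v.2.2]) (YY m (inr v) (Om _))
  rw [norm_ev, one_mul] at h
  refine le_trans ?_ h
  simp only [YY, sig, cub, ContinuousLinearMap.add_apply, sc3_Om, inner_add_right, inner_ev,
    apply_ite (inner ℂ (ev [hid v.1, hid v.2.1, hid v.2.2])), inner_zero_right]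
  simp only [List.cons.injEq, List.cons_ne_self, reduceCtorEq, and_false, ↓reduceIte, ite_self,
    add_zero, and_true, and_self]
  split_ifs <;> norm_num

variable {t : ℝ}

lemma sg_pos (ht : 0 < t) (j : JJ m) : 0 < sg t j :=
  Real.sqrt_pos.2 (by linarith [al_nonneg j])

lemma sg_sq (ht : 0 < t) (j : JJ m) : sg t j ^ 2 = al j + t :=
  Real.sq_sqrt (by linarith [al_nonneg j])

lemma conj_ca (j : JJ m) : conj (ca t j) = ca t j := Complex.conj_ofReal _
lemma conj_cb (j : JJ m) : conj (cb t j) = cb t j := Complex.conj_ofReal _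
lemma ca_inl (i : Fin m) : ca t (inl i) = 0 := by simp [ca, al]

lemma cab (ht : 0 < t) (j : JJ m) : ca t j * ca t j + cb t j * cb t j = 1 := by
  have := sg_pos ht j
  have h2 := sg_sq ht j
  unfold ca cb
  norm_cast
  rw [div_mul_div_comm, div_mul_div_comm, al_sq, Real.mul_self_sqrt ht.le, ← add_div, ← h2]
  field_simp

lemma sg_ca (ht : 0 < t) (j : JJ m) : (sg t j : ℂ) * ca t j = al j := by
  have := sg_pos ht j
  unfold ca; norm_cast; field_simp

lemma sg_cb (ht : 0 < t) (j : JJ m) : (sg t j : ℂ) * cb t j = Real.sqrt t := by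
  have := sg_pos ht j
  unfold cb; norm_cast; field_simp

lemma sg_ci (ht : 0 < t) (j : JJ m) : (sg t j : ℂ) * ci t j = 1 := by
  have := sg_pos ht j
  unfold ci; norm_cast; field_simp

lemma star_cre (c : AA m → FH (AA m) →L[ℂ] FH (AA m)) (j : JJ m) :
    star (cre c t j) = ca t j • star (c (inl j)) + cb t j • star (c (inr j)) := by
  simp [cre, conj_ca, conj_cb]

lemma flow_eq (ht : 0 < t) (j : JJ m) : flow (XX m) (SS m) t j = (sg t j : ℂ) •
    (cre lc t j + star (cre lc t j) + ci t j • YY m j) := by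
  rw [star_cre]
  simp only [flow, XX_eq, SS, cre, smul_add, smul_smul, sc, sg_ca ht, sg_cb ht, sg_ci ht, one_smul]
  abel

lemma flow_eq' (ht : 0 < t) (j : JJ m) : flow (XX m) (SS m) t j
    = YY m j + (sg t j : ℂ) • cre sc t j := by
  simp only [flow, XX_eq, SS, cre, smul_add, smul_smul, sg_ca ht, sg_cb ht, add_assoc]

lemma star_flow (j : JJ m) : star (flow (XX m) (SS m) t j) = flow (XX m) (SS m) t j := by
  simp [flow, star_XX, SS, star_sc]

lemma flow_MF (j : JJ m) : flow (XX m) (SS m) t j ∈ MF (AA m) :=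
  add_mem (XX_MF j) ((MF (AA m)).toStarSubalgebra.smul_mem (sc_mem_MF _) _)

lemma hid_cre (i : Fin m) (j : JJ m) (ξ : FH (AA m)) : star (lc (hid i)) (cre lc t j ξ) = 0 := by
  cases j <;> simp [cre, lcs_lc_apply, hid, ca_inl]

lemma cre_hid (i : Fin m) (j : JJ m) (ξ : FH (AA m)) : star (cre lc t j) (lc (hid i) ξ) = 0 :=
  ext_inner_left ℂ fun η => by
    rw [inner_star_right, ← inner_star_left, hid_cre]; simp

lemma cre_LL (ht : 0 < t) (i j : JJ m) (ξ : FH (AA m)) :
    star (cre lc t i) (cre lc t j ξ) = if i = j then ξ else 0 := by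
  rw [star_cre]
  by_cases h : i = j
  · subst h
    simp [cre, lcs_lc_apply, smul_smul, ← add_smul, cab ht]
  · simp [cre, lcs_lc_apply, h]

lemma vac_cre (j : JJ m) (ξ : FH (AA m)) : Vac (Set.range hid) (cre lc t j ξ) := by
  rintro _ ⟨i, rfl⟩; exact hid_cre i j ξ

lemma cre_Om (j : JJ m) : star (cre lc t j) (Om _) = 0 := by simp [star_cre, lcs_Om]

lemma cre_vac {x : FH (AA m) →L[ℂ] FH (AA m)} (hx : x ∈ alg (Set.range hid)) (i : JJ m)
    {η : FH (AA m)} (hη : Vac (Set.range hid) η) :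
    star (cre lc t i) (x η) = tau (Om _) x • star (cre lc t i) η :=
  vac_main (star (cre lc t i)).toLinearMap (by rintro _ ⟨a, rfl⟩ ξ; exact cre_hid a i ξ) hx hη

lemma Dg_sig {q : ℝ} (hq : 1 ≤ q) (j : JJ m) :
    Dg (AA m) q hq * sig (fun i => st q (hid i)) j = YY m j * Dg (AA m) q hq := by
  cases j with
  | inl i => exact Dg_st q hq _
  | inr v =>
    have : ∀ a b c : AA m, Dg (AA m) q hq * (st q a * st q b * st q c)
        = sc a * sc b * sc c * Dg (AA m) q hq := fun a b c => by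
      rw [← mul_assoc, ← mul_assoc, Dg_st, mul_assoc (sc a), Dg_st, ← mul_assoc, mul_assoc _ (Dg _ _ _),
        Dg_st, ← mul_assoc]
    simp only [YY, sig, cub, mul_add, add_mul, this]

lemma row_cub {H : Type} [NormedAddCommGroup H] [InnerProductSpace ℂ H] {s : Fin m → H →L[ℂ] H}
    {c : ℝ} (hc : 0 ≤ c) (h1 : Row s c) : Row (cub s) (c * c * c + c * c * c) := by
  have h3 := (h1.mul h1 hc hc).mul h1 (by positivity) hc
  exact (h3.equiv (Equiv.prodAssoc _ _ _).symm).add
    (h3.equiv ((Equiv.prodComm _ _).trans ((Equiv.prodComm _ _).prodCongr (Equiv.refl _))))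

lemma row_sig' {H : Type} [NormedAddCommGroup H] [InnerProductSpace ℂ H] {s : Fin m → H →L[ℂ] H}
    {q : ℝ} (hq : 1 ≤ q) (h1 : Row s (2 * q)) (ht' : (144 * q ^ 3) ^ 2 ≤ t) :
    Row (fun j => ci t j • sig s j) (1 / 8) := by
  have a1 : (Real.sqrt (0 + t))⁻¹ ≤ (144 * q ^ 3)⁻¹ :=
    inv_anti₀ (by positivity) (Real.le_sqrt_of_sq_le (by linarith))
  have a2 : (Real.sqrt (1 + t))⁻¹ ≤ (144 * q ^ 3)⁻¹ :=
    inv_anti₀ (by positivity) (Real.le_sqrt_of_sq_le (by linarith))
  have b1 : Row (fun i : Fin m => ci t (inl i : JJ m) • sig s (inl i))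
      ((Real.sqrt (0 + t))⁻¹ * (2 * q)) :=
    h1.smul (r := (Real.sqrt (0 + t))⁻¹) (by positivity)
  have b3 : Row (fun v : Fin m × Fin m × Fin m => ci t (inr v : JJ m) • sig s (inr v))
      ((Real.sqrt (1 + t))⁻¹ * (2 * q * (2 * q) * (2 * q) + 2 * q * (2 * q) * (2 * q))) :=
    (row_cub (by positivity) h1).smul (r := (Real.sqrt (1 + t))⁻¹) (by positivity)
  refine (Row.sum (T := fun j => ci t j • sig s j) b1 b3 (by positivity) (by positivity)).mono ?_
  have q3 : q ≤ q ^ 3 := le_self_pow₀ hq (by norm_num)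
  calc _ ≤ (144 * q ^ 3)⁻¹ * (2 * q ^ 3) + (144 * q ^ 3)⁻¹ * (2 * q * (2 * q) * (2 * q)
        + 2 * q * (2 * q) * (2 * q)) := by gcongr
    _ = 1 / 8 := by field_simp; ring

lemma model_LD {q : ℝ} (hq : 1 ≤ q) (hm : (m : ℝ) ≤ q ^ 4) (ht : 0 < t)
    (ht' : (144 * q ^ 3) ^ 2 ≤ t) : LD (Om (AA m)) (alg (Set.range hid)) (cre lc t)
      (fun j => ci t j • YY m j) (fun j => ci t j • sig (fun i => st q (hid i)) j)
      (Dg (AA m) q hq) where
  hΩ := norm_Om
  LL := cre_LL ht
  mem j := Subalgebra.smul_mem _ (YY_alg j) _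
  v1 x hx i j ξ := cre_vac hx i (vac_cre j ξ)
  v2 x hx i := by rw [cre_vac hx i (vac_Om _), cre_Om, smul_zero]
  v3 x hx j ξ := by
    rw [vac_inner hx (vac_cre j ξ), ← inner_star_left, cre_Om, inner_zero_left, mul_zero]
  D1 := norm_Dg q hq
  DΩ := Dg_Om q hq
  Dy j := by rw [mul_smul_comm, Dg_sig, smul_mul_assoc]
  row := row_sig' hq (row_st hid_inj hq (by simpa using hm)) ht'

end Vale.Agent.P087
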