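import Vale.Agent.P087.Whp
import Vale.Agent.P087.Model

namespace Vale.Agent.P087

open MeasureTheory ProbabilityTheory Finset Filter Sum
open scoped NNReal ENNReal Topology ComplexConjugate InnerProductSpace

section poly
variable {ι : Type}

/-- noncommutative polynomials -/
abbrev NC (ι : Type) := MonoidAlgebra ℂ (FreeMonoid ι)

/-- evaluation -/
noncomputable def evN {R : Type} [Ring R] [Algebra ℂ R] (X : ι → R) : NC ι →ₐ[ℂ] R :=
  MonoidAlgebra.lift ℂ R (FreeMonoid ι) (FreeMonoid.lift X)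

/-- the variables -/
noncomputable def xN (j : ι) : NC ι := MonoidAlgebra.of ℂ _ (FreeMonoid.of j)

lemma evN_of {R : Type} [Ring R] [Algebra ℂ R] (X : ι → R) (w : FreeMonoid ι) :
    evN X (MonoidAlgebra.of ℂ _ w) = word X w.toList := by
  rw [evN, MonoidAlgebra.lift_of, FreeMonoid.lift_apply]; rfl

@[simp] lemma evN_xN {R : Type} [Ring R] [Algebra ℂ R] (X : ι → R) (j : ι) : evN X (xN j) = X j := by
  simp [xN, evN]

variable {H : Type} [NormedAddCommGroup H] [InnerProductSpace ℂ H] (Ω : H) (X : ι → H →L[ℂ] H)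

/-- trace defect -/
noncomputable def dfc {k : ℕ} (x : ι × Fin k × Fin k → ℝ) (p : NC ι) : ℂ :=
  (evN (mats x) p).trace / k - tau Ω (evN X p)

lemma dfc_add {k : ℕ} (x : ι × Fin k × Fin k → ℝ) (p q : NC ι) {ε : ℝ}
    (h1 : ‖dfc Ω X x p‖ < ε / 2) (h2 : ‖dfc Ω X x q‖ < ε / 2) : ‖dfc Ω X x (p + q)‖ < ε := by
  have : dfc Ω X x (p + q) = dfc Ω X x p + dfc Ω X x q := by simp [dfc, tau_add]; ring
  rw [this]; linarith [norm_add_le (dfc Ω X x p) (dfc Ω X x q)]

lemma dfc_smul {k : ℕ} (x : ι × Fin k × Fin k → ℝ) (c : ℂ) (p : NC ι) {ε : ℝ}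
    (h1 : ‖dfc Ω X x p‖ < ε / (‖c‖ + 1)) : ‖dfc Ω X x (c • p)‖ < ε := by
  have : dfc Ω X x (c • p) = c * dfc Ω X x p := by simp [dfc, tau_smul]; ring
  rw [lt_div_iff₀ (by positivity)] at h1
  rw [this, norm_mul]; nlinarith [norm_nonneg (dfc Ω X x p)]

lemma gamma_poly (hΩ : ‖Ω‖ = 1) (p : NC ι) : ∀ δ > 0, ∃ m, ∃ ε > 0, ∀ k ≠ 0, ∀ R,
    ∀ x ∈ Gamma Ω X R m k ε, ‖dfc Ω X x p‖ < δ := by
  induction p using MonoidAlgebra.induction_on with
  | of w =>
    refine fun δ hδ => ⟨w.toList.length, δ, hδ, fun k hk R x hx => ?_⟩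
    rw [dfc, evN_of, evN_of]
    rcases eq_or_ne w.toList [] with h | h
    · have : (k : ℂ) ≠ 0 := by exact_mod_cast hk
      simp [h, tau_one Ω hΩ, this, hδ.lt]
    · exact hx.2 _ (List.length_pos_iff.2 h) le_rfl
  | add p q hp hq =>
    intro δ hδ
    obtain ⟨m, ε, hε, h⟩ := hp (δ / 2) (by positivity)
    obtain ⟨m', ε', hε', h'⟩ := hq (δ / 2) (by positivity)
    refine ⟨max m m', min ε ε', lt_min hε hε', fun k hk R x hx => dfc_add _ _ _ _ _
      (h k hk R x ⟨hx.1, fun w h1 h2 => ?_⟩) (h' k hk R x ⟨hx.1, fun w h1 h2 => ?_⟩)⟩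
    · exact (hx.2 w h1 (h2.trans (le_max_left _ _))).trans_le (min_le_left _ _)
    · exact (hx.2 w h1 (h2.trans (le_max_right _ _))).trans_le (min_le_right _ _)
  | smul c p hp =>
    intro δ hδ
    obtain ⟨m, ε, hε, h⟩ := hp (δ / (‖c‖ + 1)) (by positivity)
    exact ⟨m, ε, hε, fun k hk R x hx => dfc_smul _ _ _ _ _ (h k hk R x hx)⟩

variable [Fintype ι] [DecidableEq ι]

lemma whp_poly (hX : ∀ w, tau Ω (word X w) = tw w) (p : NC ι) :
    ∀ ε > 0, Whp (ι := ι) fun k => {x | ‖dfc Ω X x p‖ < ε} := by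
  induction p using MonoidAlgebra.induction_on with
  | of w => intro ε hε; simpa only [dfc, evN_of, hX] using whp_word w.toList hε
  | add p q hp hq =>
    exact fun ε hε => ((hp (ε / 2) (by positivity)).inter (hq (ε / 2) (by positivity))).mono
      fun k x hx => dfc_add _ _ _ _ _ hx.1 hx.2
  | smul c p hp =>
    exact fun ε hε => (hp (ε / (‖c‖ + 1)) (by positivity)).mono fun k x hx => dfc_smul _ _ _ _ _ hx

omit [Fintype ι] in
lemma tw_eq {A : Type} [DecidableEq A] {f : ι → A} (hf : Function.Injective f) (w : List ι) :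
    tau (Om A) (word (fun j => sc (f j)) w) = tw w := by
  induction w using len_ind with
  | h0 => simp [tw, tau_one _ norm_Om]
  | h a w ih =>
    rw [tw, tau_cons, word_cons, MF_trace (sc_mem_MF _) (word_mem_MF _ (fun _ => sc_mem_MF _) w),
      tau, ContinuousLinearMap.mul_apply, sc_Om, ← rc_Om, dual_word (Om A) _ (rc (f a)) (Pv A)
        Pv_apply a (fun i => by rw [sc_rc]; simp only [hf.eq_iff]) (rcs_Om _)]
    unfold tauDiff
    refine sum_congr rfl fun l _ => ?_
    rw [ih _ (by simp), ih _ (by simp)]; rfl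

end poly

variable {m : ℕ}

/-- the inverse shear -/
def unshear {R : Type} [Ring R] (u : JJ m → R) : JJ m → R
  | inl i => u (inl i)
  | inr v => -cub (fun i => u (inl i)) v + u (inr v)

lemma evN_shear {R : Type} [Ring R] [Algebra ℂ R] (X : JJ m → R) (j : JJ m) :
    evN X (shear xN j) = shear X j := by cases j <;> simp [shear, cub]

lemma evN_unshear {R : Type} [Ring R] [Algebra ℂ R] (X : JJ m → R) (j : JJ m) :
    evN X (unshear xN j) = unshear X j := by cases j <;> simp [unshear, cub]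

lemma unshear_shear {R : Type} [Ring R] (X : JJ m → R) (j : JJ m) :
    unshear (shear X) j = X j := by cases j <;> simp [unshear, shear]

lemma exists_shearC (k : ℕ) (s : ℝ) :
    ∃ T : (JJ m × Fin k × Fin k → ℝ) → (JJ m × Fin k × Fin k → ℝ), MeasurePreserving T ∧
      (∀ x i, mats (T x) (inl i) = mats x (inl i)) ∧ ∀ x v, mats (T x) (inr v)
        = (s : ℂ) • cub (fun i => mats x (inl i)) v + mats x (inr v) := by
  let p : JJ m × Fin k × Fin k → Prop := fun c => c.1.isLeft
  let C : ({c // p c} → ℝ) → JJ m → Matrix (Fin k) (Fin k) ℂ := fun y j =>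
    (s : ℂ) • sig (fun i => herm fun z => y ⟨(inl i, z), rfl⟩) j
  have hC : ∀ j, Continuous fun y => C y j := by
    have : ∀ i, Continuous fun y : {c // p c} → ℝ => herm fun z => y ⟨(inl i, z), rfl⟩ :=
      fun i => continuous_matrix fun a b => by simp only [herm, Matrix.of_apply]; fun_prop
    rintro (i | v)
    · exact (this i).const_smul (s : ℂ)
    · exact ((((this v.1).mul (this v.2.1)).mul (this v.2.2)).add
        (((this v.2.2).mul (this v.2.1)).mul (this v.1))).const_smul (s : ℂ)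
  refine ⟨_, shear_mp p (fun y c => (C y c.1.1 c.1.2.1 c.1.2.2).re + (C y c.1.1 c.1.2.1 c.1.2.2).im)
    (measurable_pi_lambda _ fun c => Continuous.measurable ?_), fun x i => ?_, fun x v => ?_⟩
  · have := (hC c.1.1).matrix_elem c.1.2.1 c.1.2.2
    fun_prop
  · simp [mats, p]
  · simp only [mats, p, isLeft_inr, Bool.false_eq_true, ↓reduceDIte]
    rw [herm_add, herm_surj]
    · rfl
    · simp only [C, sig, star_smul, Complex.star_def, Complex.conj_ofReal]
      rw [star_cub fun i => star_herm _]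

lemma log_vol {N : ℕ} {k : ℕ} (hk : k ≠ 0) (c : ℝ) :
    ((k : ℝ) ^ 2)⁻¹ * Real.log ((Real.sqrt (2 * Real.pi * vk k))⁻¹ ^ (N * (k * k))
      * Real.exp (-(k ^ 2 * c)))⁻¹ + N / 2 * Real.log k = N / 2 * Real.log (2 * Real.pi) + c := by
  have hk' : (0 : ℝ) < k := by positivity
  have hv : (vk k : ℝ) = (k : ℝ)⁻¹ := by simp [vk]
  rw [Real.log_inv, Real.log_mul (by rw [hv]; positivity) (by positivity), Real.log_exp, Real.log_pow,
    Real.log_inv, Real.log_sqrt (by positivity), hv,
    Real.log_mul (by positivity) (by positivity), Real.log_inv]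
  push_cast; field_simp; ring

theorem chi_le : chi (Om _) (XX m)
    ≤ ((Fintype.card (JJ m) / 2 * Real.log (2 * Real.pi * Real.exp 1) + 1 / 2 : ℝ) : EReal) := by
  set N := Fintype.card (JJ m) with hN
  obtain ⟨m₀, ε, hε, h⟩ := gamma_poly (Om _) (XX m) norm_Om (∑ j, unshear xN j * unshear xN j) 1
    one_pos
  refine iSup₂_le fun R _ => iInf_le_of_le m₀ (iInf₂_le_of_le ε hε (limsup_le_of_le
    (by isBoundedDefault) ?_))
  filter_upwards [eventually_ne_atTop 0] with k hk
  have hk' : (0 : ℝ) < k := by positivity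
  have hv : vk k ≠ 0 := by simpa [vk] using hk
  obtain ⟨T, hT, h1, h2⟩ := exists_shearC (m := m) k (-1)
  have hsub : Gamma (Om _) (XX m) R m₀ k ε ⊆ T ⁻¹' {g | ∑ c, g c ^ 2 ≤ k * (N + 1)} := by
    intro x hx
    have h3 := h k hk R x hx
    have e1 : ∀ j, unshear (mats x) j = mats (T x) j := by
      rintro (i | v)
      · exact (h1 x i).symm
      · rw [h2]; simp [unshear]
    have e2 : ∀ j : JJ m, tau (Om (AA m)) (sc (inl j) * sc (inl j)) = 1 := fun j => by
      simpa [sq] using ((semi_sc (inl j : AA m)).2 1).1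
    have e3 : tau (Om (AA m)) (∑ j : JJ m, sc (inl j) * sc (inl j)) = N := by
      rw [← tauL_apply, map_sum]; simp [e2, hN]
    simp only [dfc, map_sum, map_mul, evN_unshear, XX, unshear_shear, e1, e3, Matrix.trace_sum,
      mats, trace_herm] at h3
    have h4 : (∑ c, T x c ^ 2) / k - N < 1 := by
      refine lt_of_le_of_lt (le_abs_self _) ?_
      rw [← Real.norm_eq_abs, ← Complex.norm_real]
      refine lt_of_eq_of_lt (congrArg _ ?_) h3
      rw [Fintype.sum_prod_type]
      simp [sq]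
    rw [sub_lt_iff_lt_add, div_lt_iff₀ hk'] at h4
    change ∑ c, T x c ^ 2 ≤ _
    linarith
  have hb := vol_ball (κ := JJ m × Fin k × Fin k) hv (k * (N + 1))
  have e : -((k : ℝ) * (N + 1)) / (2 * vk k) = -(k ^ 2 * ((N + 1) / 2)) := by
    simp only [vk, NNReal.coe_inv, NNReal.coe_natCast]; field_simp
  rw [e, Fintype.card_prod, Fintype.card_prod, Fintype.card_fin, ← hN] at hb
  set b := (Real.sqrt (2 * Real.pi * vk k))⁻¹ ^ (N * (k * k)) * Real.exp (-(k ^ 2 * ((N + 1) / 2)))
    with hbdef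
  have hb0 : 0 < b := by have : (0 : ℝ) < vk k := by positivity
                         positivity
  have hvol : volume (Gamma (Om _) (XX m) R m₀ k ε) ≤ ENNReal.ofReal b⁻¹ := by
    refine (measure_mono hsub).trans ?_
    rw [hT.measure_preimage (measurableSet_le (by fun_prop) measurable_const).nullMeasurableSet,
      ENNReal.ofReal_inv_of_pos hb0, ENNReal.le_inv_iff_mul_le, mul_comm]
    exact hb
  calc _ ≤ ((((k : ℝ) ^ 2)⁻¹ : ℝ) : EReal) * (Real.log b⁻¹ : ℝ) + ((N / 2 * Real.log k : ℝ) : EReal) := by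
        gcongr
        rw [← ENNReal.log_ofReal_of_pos (by positivity)]
        exact ENNReal.log_monotone hvol
    _ = _ := by
        rw [← EReal.coe_mul, ← EReal.coe_add, hbdef, log_vol hk,
          Real.log_mul (x := 2 * Real.pi) (by positivity) (by positivity), Real.log_exp]
        congr 1; ring

lemma norm_mul3' {R : Type} [NormedRing R] {a b c : R} (ha : ‖a‖ ≤ 48) (hb : ‖b‖ ≤ 48)
    (hc : ‖c‖ ≤ 48) : ‖a * b * c‖ ≤ 48 ^ 3 := by
  have h1 : ‖a * b‖ ≤ 48 ^ 2 := (norm_mul_le _ _).trans (by nlinarith [norm_nonneg a, norm_nonneg b])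
  exact (norm_mul_le _ _).trans (by nlinarith [norm_nonneg (a * b), norm_nonneg c])

theorem chi_ge : ⊥ < chi (Om _) (XX m) := by
  set N := Fintype.card (JJ m) with hN
  refine lt_of_lt_of_le (EReal.bot_lt_coe (N / 2 * Real.log (2 * Real.pi) - 1)) ?_
  refine le_iSup₂_of_le (2 * 48 ^ 3 + 48) (by norm_num) (le_iInf fun m₀ => le_iInf₂ fun ε hε =>
    le_limsup_of_frequently_le (Eventually.frequently ?_))
  choose T hT h1 h2 using fun k => exists_shearC (m := m) k 1
  have e1 : ∀ k x, mats (T k x) = shear (mats x) := by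
    intro k x
    funext j
    rcases j with i | v
    · exact h1 k x i
    · rw [h2]; simp [shear]
  have hw : Whp fun k => T k ⁻¹' Gamma (Om _) (XX m) (2 * 48 ^ 3 + 48) m₀ k ε := by
    refine ((whp_all Set.finite_univ fun j _ => whp_norm j).inter
      (whp_all (List.finite_length_le (JJ m) m₀) fun w _ => whp_poly (Om (AA m))
        (fun j => sc (inl j)) (tw_eq inl_injective) (word (shear xN) w) ε hε)).mono
      fun k x hx => ⟨fun j => ?_, fun w _ hw => ?_⟩
    · have hn := fun j => hx.1 j (Set.mem_univ _)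
      simp only [Set.mem_setOf_eq] at hn
      rw [e1]
      rcases j with i | v
      · exact (hn _).trans (by norm_num)
      · simp only [shear, cub, map_add, map_mul]
        refine norm_add₃_le.trans ?_
        linarith [norm_mul3' (hn (inl v.1)) (hn (inl v.2.1)) (hn (inl v.2.2)), hn (inr v),
          norm_mul3' (hn (inl v.2.2)) (hn (inl v.2.1)) (hn (inl v.1))]
    · have := hx.2 w hw
      simp only [Set.mem_setOf_eq, dfc, map_word, evN_shear] at this
      rw [e1]; exact this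
  filter_upwards [eventually_ne_atTop 0, hw.eventually (gt_mem_nhds (show (0 : ℝ) < 1 / 2 by norm_num))]
    with k hk hw
  have hk' : (1 : ℝ) ≤ k := by exact_mod_cast Nat.one_le_iff_ne_zero.2 hk
  have hv : vk k ≠ 0 := by simpa [vk] using hk
  set G := Gamma (Om _) (XX m) (2 * 48 ^ 3 + 48) m₀ k ε
  have h3 : 1 / 2 ≤ (gm _ (vk k)).real (T k ⁻¹' G) := by
    have := measureReal_union_le (μ := gm _ (vk k)) (T k ⁻¹' G) (T k ⁻¹' G)ᶜ
    rw [Set.union_compl_self, probReal_univ] at this
    linarith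
  have h4 := gm_le hv (T k ⁻¹' G)
  rw [Fintype.card_prod, Fintype.card_prod, Fintype.card_fin, ← hN] at h4
  set c := (Real.sqrt (2 * Real.pi * vk k))⁻¹ ^ (N * (k * k)) with hc
  have hc0 : 0 < c := by have : (0 : ℝ) < vk k := by positivity
                         positivity
  have hvol : ENNReal.ofReal (c * Real.exp (-(k ^ 2 * (-1))))⁻¹ ≤ volume G := by
    refine le_trans ?_ ((hT k).measure_preimage_le G)
    have h5 : ENNReal.ofReal (1 / 2) ≤ ENNReal.ofReal c * volume (T k ⁻¹' G) :=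
      le_trans (ENNReal.ofReal_le_of_le_toReal h3) h4
    rw [← ENNReal.mul_le_mul_iff_right (ENNReal.ofReal_pos.2 hc0).ne' ENNReal.ofReal_ne_top,
      ← ENNReal.ofReal_mul hc0.le]
    refine le_trans (ENNReal.ofReal_le_ofReal ?_) h5
    rw [mul_inv, ← mul_assoc, mul_inv_cancel₀ hc0.ne', one_mul, one_div]
    refine inv_anti₀ two_pos ?_
    nlinarith [Real.add_one_le_exp (-((k : ℝ) ^ 2 * (-1)))]
  calc _ = ((((k : ℝ) ^ 2)⁻¹ : ℝ) : EReal) * (Real.log (c * Real.exp (-(k ^ 2 * (-1))))⁻¹ : ℝ)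
        + ((N / 2 * Real.log k : ℝ) : EReal) := by
        rw [← EReal.coe_mul, ← EReal.coe_add, hc, log_vol hk, sub_eq_add_neg]
    _ ≤ _ := by
        gcongr
        rw [← ENNReal.log_ofReal_of_pos (by positivity)]
        exact ENNReal.log_monotone hvol

end Vale.Agent.P087
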