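import Vale.Agent.P087.Basic

namespace Vale.Agent.P087

open scoped InnerProductSpace ENNReal ComplexConjugate
open Finset

variable {H : Type} [NormedAddCommGroup H] [InnerProductSpace ℂ H] [CompleteSpace H]
variable {ι : Type} (Ω : H) (Z : ι → H →L[ℂ] H)

/-- polynomial vectors -/
noncomputable def K0 : Submodule ℂ H := Submodule.span ℂ (Set.range fun w => word Z w Ω)

/-- their closure -/
noncomputable def KK : Submodule ℂ H := (K0 Ω Z).topologicalClosure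

instance : (KK Ω Z).HasOrthogonalProjection := by
  unfold KK; infer_instance

/-- conditional expectation -/
noncomputable def EE : H →L[ℂ] H := (KK Ω Z).starProjection

omit [CompleteSpace H] in
lemma word_mem_KK (w : List ι) : word Z w Ω ∈ KK Ω Z :=
  Submodule.le_topologicalClosure _ (Submodule.subset_span ⟨w, rfl⟩)

omit [CompleteSpace H] in
lemma Z_mem_K0 (j : ι) {x : H} (hx : x ∈ K0 Ω Z) : Z j x ∈ K0 Ω Z := by
  induction hx using Submodule.span_induction with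
  | mem x hx =>
    obtain ⟨w, rfl⟩ := hx
    exact Submodule.subset_span ⟨j :: w, by simp⟩
  | zero => simp
  | add x y _ _ hx hy => rw [map_add]; exact add_mem hx hy
  | smul c x _ hx => rw [map_smul]; exact Submodule.smul_mem _ _ hx

omit [CompleteSpace H] in
lemma Z_mem_KK (j : ι) {x : H} (hx : x ∈ KK Ω Z) : Z j x ∈ KK Ω Z :=
  map_mem_closure (Z j).continuous hx fun _ hy => Z_mem_K0 Ω Z j hy

lemma EE_mem (x : H) : EE Ω Z x ∈ KK Ω Z := Submodule.starProjection_apply_mem _ x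

lemma EE_of_mem {x : H} (hx : x ∈ KK Ω Z) : EE Ω Z x = x :=
  Submodule.starProjection_eq_self_iff.2 hx

lemma inner_EE {x : H} (hx : x ∈ KK Ω Z) (y : H) : ⟪x, EE Ω Z y⟫_ℂ = ⟪x, y⟫_ℂ := by
  rw [EE, ← Submodule.inner_starProjection_left_eq_right,
    Submodule.starProjection_eq_self_iff.2 hx]

lemma norm_EE_le (x : H) : ‖EE Ω Z x‖ ≤ ‖x‖ := Submodule.norm_starProjection_apply_le _ x

lemma norm_EE_sq (x : H) : ‖EE Ω Z x‖ ^ 2 = ‖x‖ ^ 2 - ‖x - EE Ω Z x‖ ^ 2 := by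
  have := (KK Ω Z).norm_sq_eq_add_norm_sq_starProjection x
  rw [Submodule.starProjection_orthogonal_val] at this
  rw [this, EE]; ring

variable {Z} (hZ : ∀ j, star (Z j) = Z j)
include hZ

lemma EE_comm (j : ι) : Z j * EE Ω Z = EE Ω Z * Z j := by
  ext x
  symm
  refine Submodule.eq_starProjection_of_mem_of_inner_eq_zero (Z_mem_KK Ω Z j (EE_mem Ω Z x))
    fun w hw => ?_
  change ⟪Z j x - Z j (EE Ω Z x), w⟫_ℂ = 0
  rw [← map_sub, ← hZ, inner_star_left]
  exact Submodule.starProjection_inner_eq_zero _ _ (Z_mem_KK Ω Z j hw)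

lemma closure_eq :
    closure ((fun a : H →L[ℂ] H => a Ω) '' (Set.range Z).centralizer.centralizer) = KK Ω Z := by
  apply le_antisymm
  · refine closure_minimal ?_ (Submodule.isClosed_topologicalClosure _)
    rintro _ ⟨a, ha, rfl⟩
    have h := ha (EE Ω Z) (by rintro _ ⟨j, rfl⟩; exact EE_comm Ω hZ j)
    have h1 : EE Ω Z Ω = Ω := EE_of_mem Ω Z (word_mem_KK Ω Z [])
    have : a Ω = EE Ω Z (a Ω) := by
      rw [← ContinuousLinearMap.mul_apply, h, ContinuousLinearMap.mul_apply, h1]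
    simp only
    rw [this]; exact EE_mem Ω Z _
  · refine closure_mono fun x hx => ?_
    let S : Subalgebra ℂ (H →L[ℂ] H) := Subalgebra.centralizer ℂ (Set.range Z).centralizer
    suffices ∃ a ∈ S, a Ω = x from this
    induction hx using Submodule.span_induction with
    | mem x hx =>
      obtain ⟨w, rfl⟩ := hx
      refine ⟨word Z w, S.list_prod_mem ?_, rfl⟩
      simp only [List.mem_map]
      rintro _ ⟨j, -, rfl⟩
      exact Set.subset_centralizer_centralizer ⟨j, rfl⟩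
    | zero => exact ⟨0, zero_mem _, rfl⟩
    | add x y _ _ hx hy =>
      obtain ⟨a, ha, rfl⟩ := hx
      obtain ⟨b, hb, rfl⟩ := hy
      exact ⟨a + b, add_mem ha hb, rfl⟩
    | smul c x _ hx =>
      obtain ⟨a, ha, rfl⟩ := hx
      exact ⟨c • a, S.smul_mem ha c, rfl⟩

lemma inner_word (w : List ι) (x : H) : ⟪Ω, word Z w x⟫_ℂ = ⟪word Z w.reverse Ω, x⟫_ℂ := by
  rw [← inner_star_left, star_word Z hZ]

lemma EE_unique {η η' : H} (h : ∀ w, ⟪Ω, word Z w η⟫_ℂ = ⟪Ω, word Z w η'⟫_ℂ) :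
    EE Ω Z η = EE Ω Z η' := by
  rw [← sub_eq_zero, ← map_sub, EE, Submodule.starProjection_apply_eq_zero_iff, KK,
    Submodule.orthogonal_closure, Submodule.mem_orthogonal]
  intro u hu
  induction hu using Submodule.span_induction with
  | mem x hx =>
    obtain ⟨w, rfl⟩ := hx
    have := h w.reverse
    rw [inner_word Ω hZ, inner_word Ω hZ, List.reverse_reverse] at this
    simp only
    rw [inner_sub_right, this, sub_self]
  | zero => simp
  | add x y _ _ hx hy => rw [inner_add_left, hx, hy, add_zero]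
  | smul c x _ hx => rw [inner_smul_left, hx, mul_zero]

lemma dual_EE (w : List ι) (η : H) : ⟪Ω, word Z w (EE Ω Z η)⟫_ℂ = ⟪Ω, word Z w η⟫_ℂ := by
  rw [inner_word Ω hZ, inner_word Ω hZ, inner_EE Ω Z (word_mem_KK Ω Z _)]

variable [DecidableEq ι] [Fintype ι]

lemma Phi_eq (η : ι → H) (h : ∀ j w, ⟪Ω, word Z w (η j)⟫_ℂ = tauDiff Ω Z j w) :
    Phi Ω Z = ENNReal.ofReal (∑ j, ‖EE Ω Z (η j)‖ ^ 2) := by
  apply le_antisymm
  · refine iInf₂_le_of_le (fun j => EE Ω Z (η j)) (fun j => ⟨?_, fun w => ?_⟩) le_rfl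
    · rw [closure_eq Ω hZ]; exact EE_mem Ω Z _
    · rw [dual_EE Ω hZ, h]
  · refine le_iInf₂ fun ξ hξ => le_of_eq ?_
    congr 1
    refine sum_congr rfl fun j _ => ?_
    have h1 := (hξ j).1
    rw [closure_eq Ω hZ] at h1
    rw [EE_unique Ω hZ (η' := ξ j) fun w => by rw [h, (hξ j).2], EE_of_mem Ω Z h1]

omit [Fintype ι] in
lemma cramer_rao (hΩ : ‖Ω‖ = 1) (j : ι) (η : H)
    (h : ∀ w, ⟪Ω, word Z w η⟫_ℂ = tauDiff Ω Z j w) : 1 ≤ ‖Z j Ω‖ * ‖EE Ω Z η‖ := by
  have h1 := h [j]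
  rw [← dual_EE Ω hZ, inner_word Ω hZ] at h1
  have h2 : tauDiff Ω Z j [j] = 1 := by simp [tauDiff, tau_one Ω hΩ]
  have h3 := norm_inner_le_norm (𝕜 := ℂ) (word Z [j].reverse Ω) (EE Ω Z η)
  rw [h1, h2] at h3
  simpa using h3

omit hZ [DecidableEq ι] [Fintype ι] in
lemma norm_EE_le_of {v : H} {c : ℝ} (hc : 0 ≤ c) (h : ∀ x ∈ K0 Ω Z, ‖⟪v, x⟫_ℂ‖ ≤ c * ‖x‖) :
    ‖EE Ω Z v‖ ≤ c := by
  have h1 : ∀ x ∈ KK Ω Z, ‖⟪v, x⟫_ℂ‖ ≤ c * ‖x‖ := fun x hx =>
    (isClosed_le (f := fun x => ‖⟪v, x⟫_ℂ‖) (g := fun x => c * ‖x‖) (by fun_prop)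
      (by fun_prop)).closure_subset_iff.2 h hx
  have h2 := h1 _ (EE_mem Ω Z v)
  rw [← inner_conj_symm, RCLike.norm_conj, ← inner_EE Ω Z (EE_mem Ω Z v), inner_self_eq_norm_sq_to_K]
    at h2
  simp only [Complex.coe_algebraMap, norm_pow, Complex.norm_real, norm_norm] at h2
  rcases (norm_nonneg (EE Ω Z v)).eq_or_lt with h0 | h0
  · rw [← h0]; exact hc
  · nlinarith

end Vale.Agent.P087
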