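import Mathlib

namespace Vale.Agent.P087

open scoped InnerProductSpace ENNReal
open MeasureTheory Filter

variable {H : Type} [NormedAddCommGroup H] [InnerProductSpace ℂ H] [CompleteSpace H]
variable {ι : Type} [Fintype ι] [DecidableEq ι]

/-- The vector state of `Ω`. -/
noncomputable def tau (Ω : H) (a : H →L[ℂ] H) : ℂ := ⟪Ω, a Ω⟫_ℂ

/-- The monomial `X_{i_1} ⋯ X_{i_p}` of the word `w = [i_1, …, i_p]`. -/
def word {A : Type} [Monoid A] (X : ι → A) (w : List ι) : A := (w.map X).prod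

/-- Orthonormal coordinates on the self-adjoint matrices with `⟨A,B⟩ = Tr(AB)`. -/
noncomputable def herm {k : ℕ} (x : Fin k × Fin k → ℝ) : Matrix (Fin k) (Fin k) ℂ :=
  Matrix.of fun a b => ((1 + Complex.I) * x (a, b) + (1 - Complex.I) * x (b, a)) / 2

/-- The tuple of self-adjoint matrices with coordinates `x`. -/
noncomputable def mats {k : ℕ} (x : ι × Fin k × Fin k → ℝ) (j : ι) : Matrix (Fin k) (Fin k) ℂ :=
  herm fun c => x (j, c)

/-- The microstate space, in orthonormal coordinates. -/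
def Gamma (Ω : H) (X : ι → H →L[ℂ] H) (R : ℝ) (m k : ℕ) (ε : ℝ) :
    Set (ι × Fin k × Fin k → ℝ) :=
  {x | (∀ j, ‖Matrix.toEuclideanCLM (n := Fin k) (𝕜 := ℂ) (mats x j)‖ ≤ R) ∧
    ∀ w : List ι, 1 ≤ w.length → w.length ≤ m →
      ‖(word (mats x) w).trace / k - tau Ω (word X w)‖ < ε}

/-- Microstates free entropy with cutoff `R`. -/
noncomputable def chiR (Ω : H) (X : ι → H →L[ℂ] H) (R : ℝ) : EReal :=
  ⨅ (m : ℕ) (ε : ℝ) (_ : 0 < ε),
    limsup (fun k : ℕ => ((((k : ℝ) ^ 2)⁻¹ : ℝ) : EReal) * ENNReal.log (volume (Gamma Ω X R m k ε))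
      + ((Fintype.card ι / 2 * Real.log k : ℝ) : EReal)) atTop

/-- Microstates free entropy. -/
noncomputable def chi (Ω : H) (X : ι → H →L[ℂ] H) : EReal :=
  ⨆ (R : ℝ) (_ : 0 < R), chiR Ω X R

/-- `(τ ⊗ τ)(∂_j w)(Z)` for a monomial `w`. -/
noncomputable def tauDiff (Ω : H) (Z : ι → H →L[ℂ] H) (j : ι) (w : List ι) : ℂ :=
  ∑ l : Fin w.length,
    if w.get l = j then tau Ω (word Z (w.take l)) * tau Ω (word Z (w.drop (l + 1))) else 0

/-- `ξ` is a tuple of conjugate variables: `ξ_j ∈ L²(W*(Z), τ)`, the closure of `W*(Z) Ω`, and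
`τ(P ξ_j) = (τ ⊗ τ)(∂_j P)` for all monomials `P`. -/
def IsConj (Ω : H) (Z : ι → H →L[ℂ] H) (ξ : ι → H) : Prop :=
  ∀ j, ξ j ∈ closure ((fun a : H →L[ℂ] H => a Ω) '' (Set.range Z).centralizer.centralizer) ∧
    ∀ w : List ι, ⟪Ω, word Z w (ξ j)⟫_ℂ = tauDiff Ω Z j w

/-- Free Fisher information (`+∞` if there are no conjugate variables). -/
noncomputable def Phi (Ω : H) (Z : ι → H →L[ℂ] H) : ℝ≥0∞ :=
  ⨅ (ξ : ι → H) (_ : IsConj Ω Z ξ), ENNReal.ofReal (∑ j, ‖ξ j‖ ^ 2)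

/-- The tuple `X + √t S`. -/
noncomputable def flow (X S : ι → H →L[ℂ] H) (t : ℝ) (j : ι) : H →L[ℂ] H :=
  X j + (Real.sqrt t : ℂ) • S j

/-- Nonmicrostates free entropy; the integral is that of the positive part minus that of the
negative part. -/
noncomputable def chiStar (Ω : H) (X S : ι → H →L[ℂ] H) : EReal :=
  ((1 / 2 : ℝ) : EReal) *
    (((∫⁻ t in Set.Ioi (0 : ℝ),
        (ENNReal.ofReal (Fintype.card ι / (1 + t)) - Phi Ω (flow X S t)) : ℝ≥0∞) : EReal) -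
      ((∫⁻ t in Set.Ioi (0 : ℝ),
        (Phi Ω (flow X S t) - ENNReal.ofReal (Fintype.card ι / (1 + t))) : ℝ≥0∞) : EReal)) +
    ((Fintype.card ι / 2 * Real.log (2 * Real.pi * Real.exp 1) : ℝ) : EReal)

/-- Free independence of a family of unital subalgebras. -/
def IsFree {κ : Type} (Ω : H) (A : κ → Subalgebra ℂ (H →L[ℂ] H)) : Prop :=
  ∀ l : List (κ × (H →L[ℂ] H)), l ≠ [] → l.IsChain (fun p q => p.1 ≠ q.1) →
    (∀ p ∈ l, p.2 ∈ A p.1 ∧ tau Ω p.2 = 0) → tau Ω (l.map Prod.snd).prod = 0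

/-- A semicircular element of variance one. -/
def IsSemicircular (Ω : H) (s : H →L[ℂ] H) : Prop :=
  IsSelfAdjoint s ∧ ∀ p : ℕ, tau Ω (s ^ (2 * p)) = catalan p ∧ tau Ω (s ^ (2 * p + 1)) = 0

/-- The algebras generated by `X`, by `S_1`, …, by `S_n`. -/
noncomputable def algs (X S : ι → H →L[ℂ] H) : Option ι → Subalgebra ℂ (H →L[ℂ] H)
  | none => Algebra.adjoin ℂ (Set.range X)
  | some j => Algebra.adjoin ℂ {S j}

end Vale.Agent.P087
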