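import Vale.Agent.P087.Model

namespace Vale.Agent.P087

open scoped InnerProductSpace ENNReal ComplexConjugate
open Finset Sum

attribute [local instance 100] LieRing.ofAssociativeRing

section gen
variable {A : Type} [DecidableEq A]

lemma lie_sc_rc (a b : A) : ⁅sc a, rc b⁆ = if a = b then Pv A else 0 := by
  rw [Ring.lie_def, sc_rc]; abel

lemma lie_alg_rc {B : Set A} {c : A} (hc : c ∉ B) {x : FH A →L[ℂ] FH A} (hx : x ∈ alg B) :
    ⁅x, rc c⁆ = 0 := by
  rw [Ring.lie_def, sub_eq_zero]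
  refine (Algebra.commute_of_mem_adjoin_of_forall_mem_commute hx ?_).symm
  rintro _ ⟨b, hb, rfl⟩
  have : b ≠ c := fun h => hc (h ▸ hb)
  have h := sc_rc b c
  rw [if_neg this, add_zero] at h
  exact h.symm

/-- right multiplication version of the derivative of a cubic -/
noncomputable def Dl (i x y z : A) : (FH A →L[ℂ] FH A) →ₗ[ℂ] (FH A →L[ℂ] FH A) :=
  (if x = i then LinearMap.mulLeftRight ℂ (1, dc z * dc y) else 0)
    + (if y = i then LinearMap.mulLeftRight ℂ (dc x, dc z) else 0)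
    + (if z = i then LinearMap.mulLeftRight ℂ (dc y * dc x, 1) else 0)

lemma Dl_apply (i x y z : A) (R : FH A →L[ℂ] FH A) : Dl i x y z R
    = (if x = i then R * (dc z * dc y) else 0) + (if y = i then dc x * R * dc z else 0)
      + (if z = i then dc y * dc x * R else 0) := by
  unfold Dl; split_ifs <;> simp

lemma lie_Dl (i x y z : A) {Z : FH A →L[ℂ] FH A} (hZ : Z ∈ MF A) (R : FH A →L[ℂ] FH A) :
    ⁅Z, Dl i x y z R⁆ = Dl i x y z ⁅Z, R⁆ := by
  have h := mem_MF.1 hZ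
  have h' : ∀ a (T : FH A →L[ℂ] FH A), dc a * (Z * T) = Z * (dc a * T) := fun a T => by
    rw [← mul_assoc, h, mul_assoc]
  simp only [Dl_apply, lie_add]
  congr 1
  · congr 1 <;> split_ifs <;> simp [Ring.lie_def, mul_sub, sub_mul, mul_assoc, h, h']
  · split_ifs <;> simp [Ring.lie_def, mul_sub, mul_assoc, h']

lemma lie_sc3 (i x y z : A) : ⁅sc x * sc y * sc z, rc i⁆ = Dl i x y z (Pv A) := by
  have e : ⁅sc x * sc y * sc z, rc i⁆ = ⁅sc x, rc i⁆ * (sc y * sc z) + sc x * ⁅sc y, rc i⁆ * sc z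
      + sc x * sc y * ⁅sc z, rc i⁆ := by simp only [Ring.lie_def]; noncomm_ring
  rw [e, Dl_apply]
  simp only [lie_sc_rc]
  congr 1
  · congr 1 <;> split_ifs
    · rw [← mul_assoc, Pv_sc, mul_assoc, ← sc_dc, ← mul_assoc, Pv_sc, mul_assoc]
    · simp
    · rw [sc_Pv, mul_assoc, Pv_sc, mul_assoc]
    · simp
  · split_ifs
    · rw [mul_assoc, sc_Pv, ← mul_assoc, sc_dc, mul_assoc, sc_Pv, mul_assoc]
    · simp

lemma Dl_Om (i : A) {x y z c : A} (hx : c ≠ x) : star (Dl i x y z (rc c)) (Om A) = 0 := by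
  have h1 : star (rc c) (dc x (Om A)) = 0 := by
    rw [dc_Om, ← List.nil_append [x], rcs_snoc, if_neg hx]
  have h2 : star (rc c) (dc x (dc y (Om A))) = 0 := by
    rw [dc_Om, dc, ContinuousLinearMap.add_apply, rc_ev, map_add, rcs_snoc, if_neg hx,
      ← List.nil_append [y], rcs_snoc]
    split_ifs <;> simp
  rw [Dl_apply]
  split_ifs <;> simp [star_dc, h1, h2, rcs_Om]

lemma norm_Dl (i x y z c : A) : ‖Dl i x y z (rc c)‖ ≤ 24 := by
  have h := (norm_rc c).trans one_le_two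
  have k : ∀ (p : Prop) [Decidable p] (T : FH A →L[ℂ] FH A), ‖T‖ ≤ 8 →
      ‖if p then T else 0‖ ≤ 8 := by
    intro p _ T hT; split_ifs; exacts [hT, by simp]
  rw [Dl_apply]
  refine (norm_add₃_le).trans ?_
  have h1 := k (x = i) _ (mul_assoc (rc c) _ _ ▸ norm_mul3 h (norm_dc z) (norm_dc y))
  have h2 := k (y = i) _ (norm_mul3 (norm_dc x) h (norm_dc z))
  have h3 := k (z = i) _ (norm_mul3 (norm_dc y) (norm_dc x) h)
  linarith

end gen

variable {m : ℕ} {t : ℝ}

lemma dual_of_lie {Z : JJ m → FH (AA m) →L[ℂ] FH (AA m)} {C : FH (AA m) →L[ℂ] FH (AA m)}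
    {j : JJ m} (h : ∀ i, ⁅Z i, C⁆ = if i = j then Pv _ else 0) (h0 : star C (Om _) = 0)
    (w : List (JJ m)) : ⟪Om _, word Z w (C (Om _))⟫_ℂ = tauDiff (Om _) Z j w :=
  dual_word _ Z C (Pv _) Pv_apply j (fun i => by rw [← h, Ring.lie_def]; abel) h0 w

lemma lie_YY_cre (i j : JJ m) : ⁅YY m i, cre rc t j⁆ = 0 := by
  have h : ∀ c ∉ Set.range hid, ⁅YY m i, rc c⁆ = 0 := fun c hc => lie_alg_rc hc (YY_alg i)
  cases j <;> simp [cre, ca_inl, h, hid]

lemma dual1 (ht : 0 < t) (j : JJ m) (w : List (JJ m)) :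
    ⟪Om _, word (flow (XX m) (SS m) t) w (ci t j • cre lc t j (Om _))⟫_ℂ
      = tauDiff (Om _) (flow (XX m) (SS m) t) j w := by
  have : ci t j • cre lc t j (Om _) = (ci t j • cre rc t j) (Om _) := by
    simp [cre, lc_Om, rc_Om]
  rw [this]
  refine dual_of_lie (fun i => ?_) (by simp [star_cre, rcs_Om]) w
  rw [flow_eq' ht, lie_smul, add_lie, lie_YY_cre, zero_add, smul_lie]
  by_cases h : i = j
  · subst h
    simp only [cre, add_lie, lie_add, smul_lie, lie_smul, lie_sc_rc]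
    simp only [reduceCtorEq, ↓reduceIte, smul_zero, add_zero, zero_add, smul_smul, ← add_smul,
      cab ht, mul_one]
    rw [mul_comm, sg_ci ht, one_smul]
  · simp [cre, lie_sc_rc, h]

/-- second dual operator -/
noncomputable def C2 (i : Fin m) : FH (AA m) →L[ℂ] FH (AA m) :=
  rc (hid i) - ∑ v : Fin m × Fin m × Fin m,
    (Dl (hid i) (hid v.1) (hid v.2.1) (hid v.2.2) (rc (inl (inr v)))
      + Dl (hid i) (hid v.2.2) (hid v.2.1) (hid v.1) (rc (inl (inr v))))

lemma norm_C2 (i : Fin m) : ‖C2 i‖ ≤ 1 + 48 * m ^ 3 := by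
  refine (norm_sub_le _ _).trans (add_le_add (norm_rc _) ((norm_sum_le _ _).trans ?_))
  refine (sum_le_card_nsmul _ _ 48 fun v _ => (norm_add_le _ _).trans ?_).trans (le_of_eq ?_)
  · linarith [norm_Dl (hid i) (hid v.1) (hid v.2.1) (hid v.2.2) (inl (inr v)),
      norm_Dl (hid i) (hid v.2.2) (hid v.2.1) (hid v.1) (inl (inr v))]
  · simp; ring

lemma dual2 (i : Fin m) (w : List (JJ m)) :
    ⟪Om _, word (flow (XX m) (SS m) t) w (C2 i (Om _))⟫_ℂ
      = tauDiff (Om _) (flow (XX m) (SS m) t) (inl i) w := by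
  refine dual_of_lie (fun j => ?_) ?_ w
  · rw [C2, lie_sub, lie_sum]
    simp only [lie_add, lie_Dl _ _ _ _ (flow_MF j)]
    have h : ∀ v : Fin m × Fin m × Fin m, ⁅flow (XX m) (SS m) t j, rc (inl (inr v) : AA m)⁆
        = if j = inr v then Pv _ else 0 := by
      intro v
      rw [flow, XX_eq, add_lie, add_lie, lie_alg_rc (by simp [hid]) (YY_alg j), smul_lie, smul_lie,
        SS, lie_sc_rc, lie_sc_rc]
      cases j <;> simp [al]
    simp only [h]
    rw [flow, XX_eq, add_lie, add_lie, smul_lie, smul_lie, SS, lie_sc_rc, lie_sc_rc]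
    cases j with
    | inl j => simp [YY, sig, lie_sc_rc, al, hid]
    | inr v =>
      rw [sum_eq_single v]
      · simp [YY, sig, cub, lie_sc3, hid]
      · intro u _ hu; simp [hu.symm]
      · simp
  · rw [C2, star_sub, star_sum, ContinuousLinearMap.sub_apply, rcs_Om,
      ContinuousLinearMap.sum_apply, sum_eq_zero, sub_zero]
    intro v _
    rw [star_add, ContinuousLinearMap.add_apply, Dl_Om _ (by simp [hid]), Dl_Om _ (by simp [hid]),
      add_zero]

/-- squared norms of the conjugate variables -/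
noncomputable def FF (m : ℕ) (t : ℝ) (j : JJ m) : ℝ :=
  ‖EE (Om _) (flow (XX m) (SS m) t) (ci t j • cre lc t j (Om _))‖ ^ 2

lemma Phi_flow (ht : 0 < t) :
    Phi (Om _) (flow (XX m) (SS m) t) = ENNReal.ofReal (∑ j, FF m t j) :=
  Phi_eq _ star_flow _ (dual1 ht)

lemma norm_cre (ht : 0 < t) (j : JJ m) : ‖cre lc t j (Om _)‖ = 1 := by
  have : ⟪cre lc t j (Om _), cre lc t j (Om _)⟫_ℂ = 1 := by
    rw [← inner_star_right, cre_LL ht, if_pos rfl, inner_Om_Om]
  rw [inner_self_eq_norm_sq_to_K] at this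
  have h2 : ‖cre lc t j (Om _)‖ ^ 2 = 1 := Complex.ofReal_injective (by simpa using this)
  exact (pow_eq_one_iff_of_nonneg (norm_nonneg _) two_ne_zero).1 h2

lemma norm_ci (ht : 0 < t) (j : JJ m) : ‖ci t j‖ ^ 2 = (al j + t)⁻¹ := by
  rw [ci, Complex.norm_real, Real.norm_eq_abs, sq_abs, inv_pow, sg_sq ht]

lemma FF_eq (ht : 0 < t) (j : JJ m) : FF m t j
    = (al j + t)⁻¹ * ‖EE (Om _) (flow (XX m) (SS m) t) (cre lc t j (Om _))‖ ^ 2 := by
  rw [FF, map_smul, norm_smul, mul_pow, norm_ci ht]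

lemma FF_le1 (ht : 0 < t) (j : JJ m) : FF m t j ≤ (al j + t)⁻¹ := by
  rw [FF_eq ht]
  have := al_nonneg j
  refine mul_le_of_le_one_right (by positivity) (pow_le_one₀ (norm_nonneg _) ?_)
  exact (norm_EE_le _ _ _).trans (norm_cre ht j).le

lemma FF_le2 (ht : 0 < t) (i : Fin m) : FF m t (inl i) ≤ (1 + 48 * m ^ 3) ^ 2 := by
  rw [FF, EE_unique _ star_flow (η' := C2 i (Om _)) fun w => by rw [dual1 ht, dual2]]
  refine pow_le_pow_left₀ (norm_nonneg _) ((norm_EE_le _ _ _).trans ?_) 2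
  simpa [norm_Om] using (C2 i).le_of_opNorm_le (norm_C2 i) (Om _)

lemma flow_Om (ht : 0 < t) (j : JJ m) : flow (XX m) (SS m) t j (Om _)
    = (sg t j : ℂ) • cre lc t j (Om _) + YY m j (Om _) := by
  rw [flow_eq ht, ContinuousLinearMap.smul_apply, ContinuousLinearMap.add_apply,
    ContinuousLinearMap.add_apply, cre_Om, add_zero, smul_add, ContinuousLinearMap.smul_apply,
    smul_smul, sg_ci ht, one_smul]

lemma FF_ge (ht : 0 < t) (j : JJ m) : (257 + t)⁻¹ ≤ FF m t j := by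
  have h := cramer_rao _ star_flow norm_Om j _ (dual1 ht j)
  have h1 : ‖flow (XX m) (SS m) t j (Om _)‖ ^ 2 ≤ 257 + t := by
    have ho : ⟪(sg t j : ℂ) • cre lc t j (Om _), YY m j (Om _)⟫_ℂ = 0 := by
      rw [inner_smul_left, ← inner_star_right, cre_vac (YY_alg j) j (vac_Om _), cre_Om]; simp
    rw [flow_Om ht, sq, norm_add_sq_eq_norm_sq_add_norm_sq_of_inner_eq_zero _ _ ho, norm_smul,
      norm_cre ht, Complex.norm_real, Real.norm_of_nonneg (sg_pos ht j).le, mul_one, ← sq, sg_sq ht]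
    have h2 : ‖YY m j (Om _)‖ ≤ 16 := by
      simpa [norm_Om] using (YY m j).le_of_opNorm_le (norm_YY j) (Om _)
    have h3 : al j ≤ 1 := by cases j <;> simp [al]
    nlinarith [norm_nonneg (YY m j (Om _))]
  rw [inv_le_iff_one_le_mul₀' (by positivity), FF]
  have h2 := pow_le_pow_left₀ zero_le_one h 2
  rw [mul_pow, one_pow] at h2
  exact h2.trans (mul_le_mul_of_nonneg_right h1 (by positivity))

lemma FF_gain {q : ℝ} (hq : 1 ≤ q) (hm : (m : ℝ) ≤ q ^ 4) (ht : 0 < t)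
    (ht' : (144 * q ^ 3) ^ 2 ≤ t) (v : Fin m × Fin m × Fin m) :
    FF m t (inr v) ≤ (1 + t)⁻¹ - (1 / 4) / (1 + t) ^ 2 := by
  have h := (model_LD hq hm ht ht').main _ (flow_eq ht) (YY_alg (inr v)) (tau_YY _)
  rw [star_YY] at h
  set E := EE (Om _) (flow (XX m) (SS m) t)
  set y := YY m (inr v) (Om _)
  set l := cre lc t (inr v : JJ m) (Om _)
  have h1 : 1 / 2 ≤ ‖y - E y‖ := by linarith [norm_sub_norm_le y (E y), one_le_YY v]
  have h2 : (sg t (inr v : JJ m) : ℂ) • (l - E l) = -(y - E y) := by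
    have := EE_of_mem _ _ (word_mem_KK (Om _) (flow (XX m) (SS m) t) [inr v])
    simp only [word_cons, word_nil, mul_one, flow_Om ht, map_add, map_smul] at this
    rw [smul_sub, sub_eq_iff_eq_add, ← sub_eq_zero]
    rw [← sub_eq_zero] at this
    rw [← neg_eq_zero, ← this]; abel
  have h3 := congrArg (fun x => ‖x‖ ^ 2) h2
  simp only [norm_smul, norm_neg, mul_pow, Complex.norm_real, Real.norm_eq_abs, sq_abs, sg_sq ht,
    al] at h3
  rw [FF_eq ht, norm_EE_sq, norm_cre ht]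
  have h4 : (1 / 4) / (1 + t) ≤ ‖l - E l‖ ^ 2 := by
    rw [div_le_iff₀' (by positivity), h3]; nlinarith
  calc (al (inr v : JJ m) + t)⁻¹ * (1 ^ 2 - ‖l - E l‖ ^ 2)
      ≤ (1 + t)⁻¹ * (1 - (1 / 4) / (1 + t)) :=
        mul_le_mul_of_nonneg_left (by linarith) (by simp only [al]; positivity)
    _ = _ := by field_simp

end Vale.Agent.P087
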