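import Vale.Agent.P087.Basic

namespace Vale.Agent.P087

open scoped InnerProductSpace ENNReal ComplexConjugate
open Finset

/-- full Fock space -/
noncomputable abbrev FH (A : Type) := lp (fun _ : List A => ℂ) 2

variable {A : Type} [DecidableEq A]

/-- basis vectors -/
noncomputable def ev (w : List A) : FH A := lp.single 2 w 1

lemma inner_ev_left (w : List A) (x : FH A) : ⟪ev w, x⟫_ℂ = x w := by
  simp [ev, lp.inner_single_left]

lemma inner_ev (u v : List A) : ⟪ev u, ev v⟫_ℂ = if u = v then 1 else 0 := by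
  rw [inner_ev_left]; simp [ev, lp.single_apply, Pi.single_apply]

lemma ev_on : Orthonormal ℂ (ev : List A → FH A) := orthonormal_iff_ite.2 inner_ev

lemma ext_ev {F : Type} [NormedAddCommGroup F] [NormedSpace ℂ F] {T S : FH A →L[ℂ] F}
    (h : ∀ w, T (ev w) = S (ev w)) : T = S := by
  refine lp.ext_continuousLinearMap (by simp) fun i => ?_
  ext
  simpa [ev] using h i

lemma vec_ext {x y : FH A} (h : ∀ w, ⟪ev w, x⟫_ℂ = ⟪ev w, y⟫_ℂ) : x = y := by
  ext w; simpa [inner_ev_left] using h w

/-- isometry induced by an injection of the basis -/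
noncomputable def Vi (f : List A → List A) (hf : Function.Injective f) : FH A →L[ℂ] FH A :=
  ((ev_on.comp f hf).orthogonalFamily.linearIsometry).toContinuousLinearMap

lemma Vi_ev (f : List A → List A) (hf : Function.Injective f) (w : List A) :
    Vi f hf (ev w) = ev (f w) := by
  unfold Vi
  rw [LinearIsometry.coe_toContinuousLinearMap]
  conv_lhs => rw [ev]
  rw [OrthogonalFamily.linearIsometry_apply_single]
  simp

lemma norm_Vi (f : List A → List A) (hf : Function.Injective f) : ‖Vi f hf‖ ≤ 1 :=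
  LinearIsometry.norm_toContinuousLinearMap_le _

/-- left creation -/
noncomputable def lc (a : A) : FH A →L[ℂ] FH A := Vi (a :: ·) (List.cons_injective)

/-- right creation -/
noncomputable def rc (a : A) : FH A →L[ℂ] FH A :=
  Vi (· ++ [a]) (fun _ _ h => List.append_cancel_right h)

/-- vacuum -/
noncomputable def Om (A : Type) [DecidableEq A] : FH A := ev []

lemma norm_Om : ‖Om A‖ = 1 := ev_on.1 _

@[simp] lemma norm_ev (w : List A) : ‖ev w‖ = 1 := ev_on.1 _

lemma inner_Om_Om : ⟪Om A, Om A⟫_ℂ = 1 := by simp [Om]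

@[simp] lemma lc_ev (a : A) (w : List A) : lc a (ev w) = ev (a :: w) := Vi_ev _ _ _
@[simp] lemma rc_ev (a : A) (w : List A) : rc a (ev w) = ev (w ++ [a]) := Vi_ev _ _ _

lemma norm_lc (a : A) : ‖lc a‖ ≤ 1 := norm_Vi _ _
lemma norm_rc (a : A) : ‖rc a‖ ≤ 1 := norm_Vi _ _

@[simp] lemma lcs_nil (a : A) : star (lc a) (ev []) = 0 :=
  vec_ext fun w => by simp [inner_star_right, inner_ev]

@[simp] lemma lcs_cons (a b : A) (w : List A) :
    star (lc a) (ev (b :: w)) = if a = b then ev w else 0 :=
  vec_ext fun u => by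
    rw [inner_star_right]
    split_ifs with h <;> simp [inner_ev, h]

@[simp] lemma rcs_nil (a : A) : star (rc a) (ev []) = 0 :=
  vec_ext fun w => by simp [inner_star_right, inner_ev]

@[simp] lemma rcs_snoc (a b : A) (w : List A) :
    star (rc a) (ev (w ++ [b])) = if a = b then ev w else 0 :=
  vec_ext fun u => by
    rw [inner_star_right]
    split_ifs with h <;> simp [inner_ev, h]

lemma lcs_Om (a : A) : star (lc a) (Om A) = 0 := lcs_nil a
lemma rcs_Om (a : A) : star (rc a) (Om A) = 0 := rcs_nil a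

lemma lcs_lc (a b : A) : star (lc a) * lc b = if a = b then 1 else 0 :=
  ext_ev fun w => by split_ifs with h <;> simp [h]

lemma lcs_lc_apply (a b : A) (x : FH A) : star (lc a) (lc b x) = if a = b then x else 0 := by
  rw [← ContinuousLinearMap.mul_apply, lcs_lc]; split_ifs <;> simp

/-- vacuum projection -/
noncomputable def Pv (A : Type) [DecidableEq A] : FH A →L[ℂ] FH A :=
  (innerSL ℂ (Om A)).smulRight (Om A)

lemma Pv_apply (x : FH A) : Pv A x = ⟪Om A, x⟫_ℂ • Om A := by simp [Pv]

lemma star_Pv : star (Pv A) = Pv A := by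
  ext1 x
  refine ext_inner_left ℂ fun y => ?_
  rw [inner_star_right, Pv_apply, Pv_apply, inner_smul_left, inner_smul_right, inner_conj_symm,
    mul_comm]

lemma lc_rc (a b : A) : lc a * rc b = rc b * lc a := ext_ev fun w => by simp

lemma lcs_rc (a b : A) : star (lc a) * rc b = rc b * star (lc a) + if a = b then Pv A else 0 :=
  ext_ev fun w => by
    cases w with
    | nil => split_ifs with h <;> simp [h, Pv_apply, Om, inner_ev]
    | cons c w =>
      have : (if a = b then Pv A else 0) (ev (c :: w)) = 0 := by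
        split_ifs <;> simp [Pv_apply, Om, inner_ev]
      rw [ContinuousLinearMap.add_apply, this]
      by_cases h' : a = c <;> simp [h']

/-- left semicirculars -/
noncomputable def sc (a : A) : FH A →L[ℂ] FH A := lc a + star (lc a)

/-- right semicirculars -/
noncomputable def dc (a : A) : FH A →L[ℂ] FH A := rc a + star (rc a)

lemma star_sc (a : A) : star (sc a) = sc a := by simp [sc, add_comm]
lemma star_dc (a : A) : star (dc a) = dc a := by simp [dc, add_comm]

lemma norm_sc (a : A) : ‖sc a‖ ≤ 2 :=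
  (norm_add_le _ _).trans (by rw [norm_star']; linarith [norm_lc a])
lemma norm_dc (a : A) : ‖dc a‖ ≤ 2 :=
  (norm_add_le _ _).trans (by rw [norm_star']; linarith [norm_rc a])

lemma sc_rc (a b : A) : sc a * rc b = rc b * sc a + if a = b then Pv A else 0 := by
  rw [sc, add_mul, mul_add, lc_rc, lcs_rc, add_assoc]

lemma sc_dc (a b : A) : sc a * dc b = dc b * sc a := by
  have h := congrArg star (sc_rc a b)
  rw [star_mul, star_add, star_mul, star_sc, apply_ite star, star_Pv, star_zero] at h
  rw [dc, mul_add, add_mul, sc_rc, h]; abel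

lemma sc_Om (a : A) : sc a (Om A) = ev [a] := by simp [sc, Om]
lemma dc_Om (a : A) : dc a (Om A) = ev [a] := by simp [dc, Om]
lemma lc_Om (a : A) : lc a (Om A) = ev [a] := by simp [Om]
lemma rc_Om (a : A) : rc a (Om A) = ev [a] := by simp [Om]

lemma sc_Pv (a : A) : sc a * Pv A = dc a * Pv A := by
  ext1 x; simp [Pv_apply, sc_Om, dc_Om]

lemma Pv_sc (a : A) : Pv A * sc a = Pv A * dc a := by
  simpa [star_mul, star_sc, star_dc, star_Pv] using congrArg star (sc_Pv a)

/-- damping operator -/
noncomputable def Dg (A : Type) (μ : ℝ) (hμ : 1 ≤ μ) : FH A →L[ℂ] FH A :=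
  lp.mapCLM 2 (fun w : List A => (((μ⁻¹ ^ w.length : ℝ) : ℂ) • ContinuousLinearMap.id ℂ ℂ))
    zero_le_one (fun w => by
      have : μ⁻¹ ^ w.length ≤ 1 := pow_le_one₀ (by positivity) (inv_le_one_of_one_le₀ hμ)
      rw [norm_smul, ContinuousLinearMap.norm_id, mul_one, Complex.norm_real,
        Real.norm_of_nonneg (by positivity)]
      exact this)

omit [DecidableEq A] in
lemma norm_Dg (μ : ℝ) (hμ : 1 ≤ μ) : ‖Dg A μ hμ‖ ≤ 1 := lp.norm_mapCLM_le _ _ _ _

lemma Dg_ev (μ : ℝ) (hμ : 1 ≤ μ) (w : List A) :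
    Dg A μ hμ (ev w) = ((μ⁻¹ ^ w.length : ℝ) : ℂ) • ev w := by
  ext u
  by_cases h : u = w <;> simp [Dg, ev, lp.single_apply, Pi.single_apply, h]

lemma Dg_Om (μ : ℝ) (hμ : 1 ≤ μ) : Dg A μ hμ (Om A) = Om A := by simp [Om, Dg_ev]

/-- deformed semicirculars -/
noncomputable def st (μ : ℝ) (a : A) : FH A →L[ℂ] FH A :=
  (μ : ℂ) • lc a + ((μ⁻¹ : ℝ) : ℂ) • star (lc a)

lemma Dg_st (μ : ℝ) (hμ : 1 ≤ μ) (a : A) : Dg A μ hμ * st μ a = sc a * Dg A μ hμ := by
  have h0 : (μ : ℂ) ≠ 0 := by exact_mod_cast (by linarith : μ ≠ 0)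
  refine ext_ev fun w => ?_
  cases w with
  | nil =>
    simp only [st, sc, ContinuousLinearMap.mul_apply, ContinuousLinearMap.add_apply,
      ContinuousLinearMap.smul_apply, map_add, map_smul, lc_ev, lcs_nil, Dg_ev, smul_smul]
    simp [h0]
  | cons b w =>
    simp only [st, sc, ContinuousLinearMap.mul_apply, ContinuousLinearMap.add_apply,
      ContinuousLinearMap.smul_apply, map_add, map_smul, lc_ev, lcs_cons, Dg_ev, smul_smul,
      smul_add]
    congr 1
    · congr 1; simp [pow_succ]; field_simp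
    · split_ifs
      · rw [Dg_ev, smul_smul]; congr 1; simp [pow_succ, mul_comm]
      · simp

/-- the von Neumann algebra -/
noncomputable def MF (A : Type) [DecidableEq A] : VonNeumannAlgebra (FH A) where
  toStarSubalgebra := StarSubalgebra.centralizer ℂ (Set.range (dc : A → _))
  centralizer_centralizer' := by simp

lemma mem_MF {x : FH A →L[ℂ] FH A} : x ∈ MF A ↔ ∀ a, dc a * x = x * dc a := by
  change x ∈ StarSubalgebra.centralizer ℂ (Set.range (dc : A → _)) ↔ _
  rw [StarSubalgebra.mem_centralizer_iff]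
  simp [star_dc]

lemma sc_mem_MF (a : A) : sc a ∈ MF A := mem_MF.2 fun b => (sc_dc a b).symm

lemma wick (w : List A) : ∃ p ∈ (MF A).commutant, p (Om A) = ev w.reverse ∧
    star p (Om A) = ev w := by
  have hd : ∀ a, dc a ∈ (MF A).commutant := fun a =>
    VonNeumannAlgebra.mem_commutant_iff.2 fun g hg => (mem_MF.1 hg a).symm
  have key : ∀ p ∈ (MF A).commutant, ∀ a : A,
      (star (dc a * p) : FH A →L[ℂ] FH A) (Om A) = sc a (star p (Om A)) := by
    intro p hp a
    have := VonNeumannAlgebra.mem_commutant_iff.1 (star_mem hp) _ (sc_mem_MF a)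
    rw [star_mul, star_dc, ContinuousLinearMap.mul_apply, dc_Om, ← sc_Om,
      ← ContinuousLinearMap.mul_apply, ← this, ContinuousLinearMap.mul_apply]
  induction w using List.twoStepInduction with
  | nil => exact ⟨1, one_mem _, by simp [Om], by simp [Om]⟩
  | singleton a =>
    exact ⟨dc a, hd a, by simp [dc_Om], by simp [star_dc, dc_Om]⟩
  | cons_cons a b w ih1 ih2 =>
    obtain ⟨p, hp, p1, p2⟩ := ih1
    obtain ⟨q, hq, q1, q2⟩ := ih2 b
    refine ⟨dc a * q - if a = b then p else 0, sub_mem (mul_mem (hd a) hq) ?_, ?_, ?_⟩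
    · split_ifs; exacts [hp, zero_mem _]
    · rw [ContinuousLinearMap.sub_apply, ContinuousLinearMap.mul_apply, q1, dc,
        ContinuousLinearMap.add_apply, List.reverse_cons (a := b), rcs_snoc, rc_ev]
      split_ifs <;> simp [p1]
    · rw [star_sub, ContinuousLinearMap.sub_apply, key q hq, q2]
      split_ifs with h <;> simp [sc, p2, h]

lemma MF_coord {x : FH A →L[ℂ] FH A} (hx : x ∈ MF A) (w : List A) :
    conj ((star x (Om A)) w.reverse) = (x (Om A)) w := by
  obtain ⟨p, hp, p1, p2⟩ := wick w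
  rw [← inner_ev_left, ← inner_ev_left, inner_conj_symm, ← p1, ← p2, inner_star_left,
    inner_star_left, ← ContinuousLinearMap.mul_apply, ← ContinuousLinearMap.mul_apply,
    VonNeumannAlgebra.mem_commutant_iff.1 hp x hx]

lemma MF_trace {x y : FH A →L[ℂ] FH A} (hx : x ∈ MF A) (hy : y ∈ MF A) :
    tau (Om A) (x * y) = tau (Om A) (y * x) := by
  have key : ∀ x ∈ MF A, ∀ y : FH A →L[ℂ] FH A, tau (Om A) (x * y)
      = ∑' w : List A, (x (Om A)) w.reverse * (y (Om A)) w := by
    intro x hx y
    rw [tau, ContinuousLinearMap.mul_apply, ← inner_star_left, lp.inner_eq_tsum]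
    refine tsum_congr fun w => ?_
    rw [← MF_coord hx, List.reverse_reverse]; simp [mul_comm]
  rw [key x hx, key y hy, ← (List.reverse_involutive.toPerm _).tsum_eq]
  refine tsum_congr fun w => ?_
  simp [mul_comm]

lemma MF_faithful {x : FH A →L[ℂ] FH A} (hx : x ∈ MF A) (h : tau (Om A) (star x * x) = 0) :
    x = 0 := by
  rw [tau, ContinuousLinearMap.mul_apply, inner_star_right, inner_self_eq_zero] at h
  refine ext_ev fun w => ?_
  obtain ⟨p, hp, p1, -⟩ := wick w.reverse
  rw [List.reverse_reverse] at p1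
  rw [← p1, ← ContinuousLinearMap.mul_apply, VonNeumannAlgebra.mem_commutant_iff.1 hp x hx]
  simp [h]

end Vale.Agent.P087
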