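import Vale.Agent.P087.Basic

namespace Vale.Agent.P087

open MeasureTheory ProbabilityTheory Finset
open scoped NNReal ENNReal

/-- Gaussian moments -/
noncomputable def mom (v : ℝ≥0) (n : ℕ) : ℝ := ∫ x, x ^ n ∂(gaussianReal 0 v)

lemma integrable_pow_gauss (v : ℝ≥0) (n : ℕ) : Integrable (fun x : ℝ => x ^ n) (gaussianReal 0 v) :=
  integrable_pow_of_mem_interior_integrableExpSet (X := fun x => x) (by simp) n

lemma mom_succ (v : ℝ≥0) (n : ℕ) : mom v (n + 1) = v * (n * mom v (n - 1)) := by
  set D : ℕ → ℝ → ℝ := fun n => iteratedDeriv n (mgf (fun x : ℝ => x) (gaussianReal 0 v)) with hD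
  have hd : ∀ n t, HasDerivAt (D n) (D (n + 1) t) t := by
    intro n t
    have := (differentiableAt_iteratedDeriv_mgf (X := fun x : ℝ => x) (μ := gaussianReal 0 v)
      (v := t) (by simp) n).hasDerivAt
    simp only [hD, iteratedDeriv_succ]
    exact this
  have key : ∀ n, D (n + 1) = fun t => v * (t * D n t + n * D (n - 1) t) := by
    intro n
    induction n with
    | zero =>
      funext t
      have h0 : D 0 = fun t => Real.exp (v * t ^ 2 / 2) := by
        simp [hD, mgf_fun_id_gaussianReal]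
      have h1 : HasDerivAt (fun t : ℝ => Real.exp (v * t ^ 2 / 2))
          (Real.exp (v * t ^ 2 / 2) * (v * t)) t := by
        have : HasDerivAt (fun t : ℝ => v * t ^ 2 / 2) (v * t) t :=
          (((hasDerivAt_pow 2 t).const_mul (v : ℝ)).div_const 2).congr_deriv (by simp; ring)
        exact this.exp
      have h2 := hd 0 t
      rw [h0] at h2
      rw [h2.unique h1, h0]; simp; ring
    | succ n ih =>
      funext t
      have h1 := hd (n + 1) t
      have h2 := (((hasDerivAt_id t).mul (hd n t)).add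
        ((hd (n - 1) t).const_mul (n : ℝ))).const_mul (v : ℝ)
      rw [ih] at h1
      have h3 := h1.unique h2
      rw [h3]
      rcases n with _ | n
      · simp [add_comm]
      · simp only [id, Nat.add_sub_cancel]; push_cast; ring
  have hm : ∀ n, mom v n = D n 0 := by
    intro n
    simp only [hD]
    rw [iteratedDeriv_mgf_zero (by simp)]
    rfl
  rw [hm, hm, key]; simp

variable {κ : Type} [Fintype κ]

/-- Gaussian product measure -/
noncomputable abbrev gm (κ : Type) [Fintype κ] (v : ℝ≥0) : Measure (κ → ℝ) :=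
  Measure.pi (fun _ => gaussianReal 0 v)

/-- evaluation at a real point -/
noncomputable def evC (g : κ → ℝ) : MvPolynomial κ ℂ →ₐ[ℂ] ℂ :=
  MvPolynomial.aeval fun c => (g c : ℂ)

lemma evC_monomial (n : κ →₀ ℕ) (a : ℂ) (g : κ → ℝ) :
    evC g (MvPolynomial.monomial n a) = a * ((∏ i, g i ^ n i : ℝ) : ℂ) := by
  rw [evC, MvPolynomial.aeval_monomial, Finsupp.prod_fintype _ _ (by simp)]; simp

lemma integrable_evC (v : ℝ≥0) (P : MvPolynomial κ ℂ) : Integrable (fun g => evC g P) (gm κ v) := by
  induction P using MvPolynomial.induction_on' with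
  | monomial n a =>
    simp only [evC_monomial]
    exact (Integrable.fintype_prod (f := fun i (x : ℝ) => x ^ n i)
      (fun i => integrable_pow_gauss _ _)).ofReal.const_mul a
  | add p q hp hq => simp only [map_add]; exact hp.add hq

/-- Gaussian expectation of polynomials -/
noncomputable def GE (κ : Type) [Fintype κ] (v : ℝ≥0) : MvPolynomial κ ℂ →ₗ[ℂ] ℂ where
  toFun P := ∫ g, evC g P ∂(gm κ v)
  map_add' P Q := by
    simp only [map_add]; exact integral_add (integrable_evC v P) (integrable_evC v Q)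
  map_smul' c P := by
    simp only [map_smul, RingHom.id_apply, smul_eq_mul]
    exact integral_const_mul _ _

lemma GE_apply (v : ℝ≥0) (P : MvPolynomial κ ℂ) : GE κ v P = ∫ g, evC g P ∂(gm κ v) := rfl

lemma GE_one (v : ℝ≥0) : GE κ v 1 = 1 := by simp [GE_apply]

lemma GE_monomial (v : ℝ≥0) (n : κ →₀ ℕ) (a : ℂ) :
    GE κ v (MvPolynomial.monomial n a) = a * ((∏ i, mom v (n i) : ℝ) : ℂ) := by
  rw [GE_apply]
  simp only [evC_monomial]
  rw [integral_const_mul, integral_complex_ofReal,
    integral_fintype_prod_eq_prod (fun i (x : ℝ) => x ^ n i)]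
  rfl

/-- Stein's identity -/
lemma GE_stein (v : ℝ≥0) (s : κ) (P : MvPolynomial κ ℂ) :
    GE κ v (MvPolynomial.X s * P) = v * GE κ v (MvPolynomial.pderiv s P) := by
  classical
  induction P using MvPolynomial.induction_on' with
  | monomial n a =>
    rw [MvPolynomial.pderiv_monomial, MvPolynomial.X, MvPolynomial.monomial_mul, GE_monomial,
      GE_monomial, ← mul_prod_erase univ _ (mem_univ s), ← mul_prod_erase univ _ (mem_univ s)]
    have e1 : ∏ i ∈ univ.erase s, mom v ((Finsupp.single s 1 + n : κ →₀ ℕ) i)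
        = ∏ i ∈ univ.erase s, mom v ((n - Finsupp.single s 1 : κ →₀ ℕ) i) := by
      refine prod_congr rfl (fun i hi => ?_)
      have := ne_of_mem_erase hi
      simp [Finsupp.single_eq_of_ne this]
    rw [e1]
    simp only [Finsupp.coe_add, Pi.add_apply, Finsupp.single_eq_same, Finsupp.coe_tsub,
      Pi.sub_apply]
    rw [add_comm 1, mom_succ]; push_cast; ring
  | add p q hp hq => rw [mul_add, map_add, map_add, map_add, hp, hq, mul_add]

lemma integral_exp_lin (v : ℝ≥0) (a : κ → ℝ) :
    Integrable (fun g : κ → ℝ => Real.exp (∑ i, a i * g i)) (gm κ v) ∧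
    ∫ g, Real.exp (∑ i, a i * g i) ∂(gm κ v) = Real.exp (v * (∑ i, a i ^ 2) / 2) := by
  simp only [Real.exp_sum]
  refine ⟨Integrable.fintype_prod (f := fun i (x : ℝ) => Real.exp (a i * x))
    (fun i => integrable_exp_mul_gaussianReal _), ?_⟩
  rw [integral_fintype_prod_eq_prod (fun i (x : ℝ) => Real.exp (a i * x)), mul_sum, sum_div,
    Real.exp_sum]
  refine prod_congr rfl (fun i _ => ?_)
  have := congrFun (mgf_fun_id_gaussianReal (μ := 0) (v := v)) (a i)
  simpa [mgf] using this

lemma gauss_tail (v : ℝ≥0) (a : κ → ℝ) (r : ℝ) :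
    (gm κ v).real {g | r ≤ ∑ i, a i * g i} ≤ Real.exp (v * (∑ i, a i ^ 2) / 2 - r) := by
  obtain ⟨h1, h2⟩ := integral_exp_lin v a
  have := mul_meas_ge_le_integral_of_nonneg (ae_of_all _ fun g => (Real.exp_pos _).le) h1
    (Real.exp r)
  simp only [Real.exp_le_exp] at this
  rw [h2] at this
  rw [Real.exp_sub, le_div_iff₀' (Real.exp_pos r)]
  exact this

lemma gm_density {v : ℝ≥0} (hv : v ≠ 0) : gm κ v
    = volume.withDensity fun g => ENNReal.ofReal (∏ c, gaussianPDFReal 0 v (g c)) := by
  refine Measure.pi_eq fun s hs => ?_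
  have hi : Integrable (fun g : κ → ℝ => ∏ c, gaussianPDFReal 0 v (g c)) :=
    Integrable.fintype_prod (f := fun _ x => gaussianPDFReal 0 v x)
      fun _ => integrable_gaussianPDFReal 0 v
  rw [withDensity_apply _ (MeasurableSet.univ_pi hs), ← ofReal_integral_eq_lintegral_ofReal
    hi.integrableOn (ae_of_all _ fun g => prod_nonneg fun _ _ => gaussianPDFReal_nonneg _ _ _),
    volume_pi, Measure.restrict_pi_pi,
    integral_fintype_prod_eq_prod (fun _ x => gaussianPDFReal 0 v x),
    ENNReal.ofReal_prod_of_nonneg fun _ _ => integral_nonneg fun _ => gaussianPDFReal_nonneg _ _ _]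
  exact prod_congr rfl fun c _ => (gaussianReal_apply_eq_integral 0 hv _).symm

lemma prod_pdf (v : ℝ≥0) (g : κ → ℝ) : ∏ c, gaussianPDFReal 0 v (g c)
    = (Real.sqrt (2 * Real.pi * v))⁻¹ ^ Fintype.card κ * Real.exp (-(∑ c, g c ^ 2) / (2 * v)) := by
  simp [gaussianPDFReal, prod_mul_distrib, ← Real.exp_sum, ← sum_div]

lemma gm_le {v : ℝ≥0} (hv : v ≠ 0) (E : Set (κ → ℝ)) : gm κ v E
    ≤ ENNReal.ofReal ((Real.sqrt (2 * Real.pi * v))⁻¹ ^ Fintype.card κ) * volume E := by
  have : gm κ v ≤ ENNReal.ofReal ((Real.sqrt (2 * Real.pi * v))⁻¹ ^ Fintype.card κ) • volume := by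
    rw [gm_density hv, ← withDensity_const]
    refine withDensity_mono (ae_of_all _ fun g => ENNReal.ofReal_le_ofReal ?_)
    rw [prod_pdf]
    refine mul_le_of_le_one_right (by positivity) (Real.exp_le_one_iff.2 ?_)
    rw [neg_div, neg_nonpos]; positivity
  exact Measure.le_iff'.1 this E

lemma vol_ball {v : ℝ≥0} (hv : v ≠ 0) (r : ℝ) :
    ENNReal.ofReal ((Real.sqrt (2 * Real.pi * v))⁻¹ ^ Fintype.card κ * Real.exp (-r / (2 * v)))
      * volume {g : κ → ℝ | ∑ c, g c ^ 2 ≤ r} ≤ 1 := by
  have hm : MeasurableSet {g : κ → ℝ | ∑ c, g c ^ 2 ≤ r} :=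
    measurableSet_le (by fun_prop) measurable_const
  refine le_trans ?_ (prob_le_one (μ := gm κ v) (s := {g : κ → ℝ | ∑ c, g c ^ 2 ≤ r}))
  rw [gm_density hv, withDensity_apply _ hm, ← setLIntegral_const]
  refine setLIntegral_mono' hm fun g hg => ENNReal.ofReal_le_ofReal ?_
  rw [prod_pdf]
  have : ∑ c, g c ^ 2 ≤ r := hg
  gcongr

lemma shear_mp (p : κ → Prop) [DecidablePred p] (G : ({c // p c} → ℝ) → {c // ¬ p c} → ℝ)
    (hG : Measurable G) : MeasurePreserving
      (fun (x : κ → ℝ) (c : κ) => if h : p c then x c else G (fun c => x c) ⟨c, h⟩ + x c) := by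
  have h1 := volume_preserving_piEquivPiSubtypeProd (fun _ : κ => ℝ) p
  have h2 : MeasurePreserving (fun z : ({c // p c} → ℝ) × ({c // ¬ p c} → ℝ) => (z.1, G z.1 + z.2))
      (volume.prod volume) (volume.prod volume) :=
    (MeasurePreserving.id volume).skew_product (g := fun a b => G a + b) (by fun_prop)
      (ae_of_all _ fun a => map_add_left_eq_self volume (G a))
  convert (h1.symm _).comp (h2.comp h1) using 1
  funext x c
  by_cases h : p c <;> simp [h, MeasurableEquiv.piEquivPiSubtypeProd, Equiv.piEquivPiSubtypeProd]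

end Vale.Agent.P087
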