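import Vale.Agent.P087.Gauss
import Vale.Agent.P087.Free

namespace Vale.Agent.P087

open MeasureTheory ProbabilityTheory Finset Filter MvPolynomial
open scoped NNReal ENNReal Topology ComplexConjugate

variable {ι : Type} [Fintype ι] [DecidableEq ι] {k : ℕ}

/-- polynomial ring of the coordinates -/
abbrev RR (ι : Type) (k : ℕ) := MvPolynomial (ι × Fin k × Fin k) ℂ

/-- the generic self-adjoint matrices -/
noncomputable def Gp (k : ℕ) (a : ι) : Matrix (Fin k) (Fin k) (RR ι k) :=
  Matrix.of fun p q => ((1 + Complex.I) / 2) • X (a, p, q) + ((1 - Complex.I) / 2) • X (a, q, p)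

/-- dual derivations -/
noncomputable def Dp (a : ι) (p q : Fin k) : Derivation ℂ (RR ι k) (RR ι k) :=
  ((1 + Complex.I) / 2) • pderiv (a, p, q) + ((1 - Complex.I) / 2) • pderiv (a, q, p)

omit [DecidableEq ι] in
lemma GE_Gp (v : ℝ≥0) (a : ι) (p q : Fin k) (Q : RR ι k) :
    GE _ v (Gp k a p q * Q) = v * GE _ v (Dp a p q Q) := by
  simp [Gp, Dp, add_mul, GE_stein]; ring

omit [Fintype ι] in
lemma Dp_Gp (a b : ι) (p q : Fin k) :
    (Gp k b).map (Dp a p q) = if b = a then Matrix.single q p 1 else 0 := by
  have h1 : (1 + Complex.I) / 2 * ((1 + Complex.I) / 2) + (1 - Complex.I) / 2 * ((1 - Complex.I) / 2)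
      = 0 := by ring_nf; simp
  have h2 : (1 + Complex.I) / 2 * ((1 - Complex.I) / 2) + (1 - Complex.I) / 2 * ((1 + Complex.I) / 2)
      = 1 := by ring_nf; simp; norm_num
  ext1 r s
  have e : (Gp k b).map (Dp a p q) r s
      = ((1 + Complex.I) / 2 * ((1 + Complex.I) / 2) + (1 - Complex.I) / 2 * ((1 - Complex.I) / 2)) •
        (if b = a ∧ r = p ∧ s = q then (1 : RR ι k) else 0)
      + ((1 + Complex.I) / 2 * ((1 - Complex.I) / 2) + (1 - Complex.I) / 2 * ((1 + Complex.I) / 2)) •
        (if b = a ∧ r = q ∧ s = p then (1 : RR ι k) else 0) := by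
    simp only [Gp, Dp, Matrix.map_apply, Matrix.of_apply, map_add, Derivation.map_smul,
      Derivation.add_apply, Derivation.smul_apply, pderiv_X, Pi.single_apply, Prod.mk.injEq,
      and_comm (a := s = p), and_comm (a := s = q), smul_add, add_smul, smul_smul]
    module
  rw [e, h1, h2]
  by_cases h : b = a <;> simp [h, Matrix.single_apply, eq_comm]

omit [Fintype ι] [DecidableEq ι] in
lemma map_der_mul (D : Derivation ℂ (RR ι k) (RR ι k)) (M N : Matrix (Fin k) (Fin k) (RR ι k)) :
    (M * N).map D = M.map D * N + M * N.map D := by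
  ext1 r s
  simp [Matrix.mul_apply, sum_add_distrib, mul_comm, add_comm]

omit [Fintype ι] in
lemma Dp_word (a : ι) (p q : Fin k) (w : List ι) : (word (Gp k) w).map (Dp a p q)
    = dsum a (fun u v => word (Gp k) u * Matrix.single q p 1 * word (Gp k) v) w := by
  induction w with
  | nil =>
    ext1 r s
    by_cases h : r = s <;> simp [Matrix.one_apply, h]
  | cons b w ih =>
    rw [word_cons, map_der_mul, ih, Dp_Gp, dsum_cons]
    have := map_dsum (AddMonoidHom.mulLeft (Gp k b)) a
      (fun u v => word (Gp k) u * Matrix.single q p 1 * word (Gp k) v) w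
    simp only [AddMonoidHom.coe_mulLeft] at this
    rw [this]
    simp only [word_cons, word_nil, mul_assoc, one_mul]
    split_ifs <;> simp

omit [Fintype ι] in
lemma Dp_entry (a : ι) (p q r s : Fin k) (w : List ι) : Dp a p q (word (Gp k) w r s)
    = dsum a (fun u v => word (Gp k) u r q * word (Gp k) v p s) w := by
  have := congrArg (Matrix.entryAddMonoidHom _ r s) (Dp_word a p q w)
  rw [map_dsum] at this
  refine this.trans ?_
  congr 1
  funext u v
  simp [Matrix.mul_apply, Matrix.single_apply, ite_and]

/-- normalised trace of a word -/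
noncomputable def trP (k : ℕ) (w : List ι) : RR ι k := (k : ℂ)⁻¹ • (word (Gp k) w).trace

/-- merging derivation -/
noncomputable def Mg (k : ℕ) (a : ι) (w : List ι) : Derivation ℂ (RR ι k) (RR ι k) :=
  ((k : ℂ)⁻¹ * (k : ℂ)⁻¹) • ∑ p, ∑ q, word (Gp k) w q p • Dp a p q

omit [Fintype ι] [DecidableEq ι] in
lemma Mg_apply (a : ι) (w : List ι) (Q : RR ι k) :
    Mg k a w Q = ((k : ℂ)⁻¹ * (k : ℂ)⁻¹) • ∑ p, ∑ q, word (Gp k) w q p * Dp a p q Q := by
  have h : ∀ (s : Finset (Fin k)) (f : Fin k → Derivation ℂ (RR ι k) (RR ι k)),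
      (∑ p ∈ s, f p) Q = ∑ p ∈ s, f p Q := fun s f => by
    induction s using Finset.cons_induction <;> simp [*]
  simp [Mg, h]

omit [Fintype ι] in
lemma smul_dsum {E : Type} [AddCommGroup E] [Module ℂ E] (c : ℂ) (j : ι)
    (f : List ι → List ι → E) (w : List ι) : c • dsum j f w = dsum j (fun u v => c • f u v) w :=
  map_dsum (DistribSMul.toAddMonoidHom E c) j f w

omit [Fintype ι] in
lemma mul_dsum {E : Type} [Ring E] (c : E) (j : ι)
    (f : List ι → List ι → E) (w : List ι) : c * dsum j f w = dsum j (fun u v => c * f u v) w :=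
  map_dsum (AddMonoidHom.mulLeft c) j f w

omit [Fintype ι] in
lemma dsum_mul {E : Type} [Ring E] (c : E) (j : ι)
    (f : List ι → List ι → E) (w : List ι) : dsum j f w * c = dsum j (fun u v => f u v * c) w :=
  map_dsum (AddMonoidHom.mulRight c) j f w

/-- variance -/
noncomputable def vk (k : ℕ) : ℝ≥0 := (k : ℝ≥0)⁻¹

lemma F1 (a : ι) (w : List ι) (Q : RR ι k) : GE _ (vk k) (trP k (a :: w) * Q)
    = dsum a (fun u v => GE _ (vk k) (trP k u * (trP k v * Q))) w + GE _ (vk k) (Mg k a w Q) := by
  have e : trP k (a :: w) * Q = (k : ℂ)⁻¹ • ∑ p, ∑ q, Gp k a p q * (word (Gp k) w q p * Q) := by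
    simp [trP, Matrix.trace, Matrix.mul_apply, sum_mul, mul_assoc]
  have hv : ((vk k : ℝ) : ℂ) = (k : ℂ)⁻¹ := by simp [vk]
  rw [e, Mg_apply, ← map_dsum, ← map_add]
  simp only [map_smul, map_sum, GE_Gp, hv, ← mul_sum, smul_eq_mul]
  simp only [← map_sum]
  rw [← mul_assoc, ← smul_eq_mul, ← map_smul]
  congr 1
  simp only [Derivation.leibniz, smul_eq_mul, sum_add_distrib, smul_add, Dp_entry]
  rw [add_comm]
  congr 1
  simp only [mul_dsum, dsum_sum, smul_dsum]
  congr 1
  funext u v
  have : ∑ p, ∑ q, Q * (word (Gp k) u q q * word (Gp k) v p p)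
      = (word (Gp k) u).trace * ((word (Gp k) v).trace * Q) := by
    simp only [Matrix.trace, Matrix.diag, sum_mul, mul_sum]
    exact sum_congr rfl fun p _ => sum_congr rfl fun q _ => by ring
  rw [this, trP, trP, smul_mul_assoc, smul_mul_assoc, mul_smul_comm, smul_smul]

omit [Fintype ι] in
lemma F2 (a : ι) (w x : List ι) : Mg k a w (trP k x)
    = ((k : ℂ)⁻¹ * (k : ℂ)⁻¹) • dsum a (fun u v => trP k (w ++ v ++ u)) x := by
  have h1 : ∀ p q : Fin k, Dp a p q (trP k x)
      = dsum a (fun u v => (k : ℂ)⁻¹ • (word (Gp k) v * word (Gp k) u) p q) x := by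
    intro p q
    rw [trP, Derivation.map_smul, Matrix.trace, map_sum, ← smul_dsum]
    simp only [Matrix.diag, Dp_entry, dsum_sum, Matrix.mul_apply, mul_comm]
  rw [Mg_apply]
  refine congrArg _ ?_
  simp only [h1, mul_dsum, dsum_sum]
  refine congrArg (fun f => dsum a f x) ?_
  funext u v
  rw [trP, List.append_assoc, word_append, word_append, Matrix.trace, sum_comm]
  simp only [Matrix.diag, mul_smul_comm, ← smul_sum, Matrix.mul_apply (M := word (Gp k) w)]

/-- product of traces -/
noncomputable def PP (k : ℕ) (l : List (List ι)) : RR ι k := (l.map (trP k)).prod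

/-- limit moments -/
noncomputable def tw (w : List ι) : ℂ := tau (Om ι) (word sc w)

omit [Fintype ι] [DecidableEq ι] in
lemma PP_cons (w : List ι) (l : List (List ι)) : PP k (w :: l) = trP k w * PP k l := by simp [PP]

omit [Fintype ι] [DecidableEq ι] in
lemma PP_append (l l' : List (List ι)) : PP k (l ++ l') = PP k l * PP k l' := by simp [PP]

lemma tendsto_inv_sq : Tendsto (fun k : ℕ => (k : ℂ)⁻¹ * (k : ℂ)⁻¹) atTop (𝓝 0) := by
  simpa using (tendsto_inv_atTop_nhds_zero_nat (𝕜 := ℂ)).mul (tendsto_inv_atTop_nhds_zero_nat (𝕜 := ℂ))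

theorem gue_conv (d : ℕ) : ∀ l : List (List ι), (l.map List.length).sum < d →
    Tendsto (fun k => GE _ (vk k) (PP k l)) atTop (𝓝 (l.map tw).prod) := by
  induction d with
  | zero => simp
  | succ d ih =>
    have merge : ∀ (a : ι) (w : List ι) (rest pre : List (List ι)),
        (pre.map List.length).sum + w.length + (rest.map List.length).sum ≤ d →
        Tendsto (fun k => GE _ (vk k) (PP k pre * Mg k a w (PP k rest))) atTop (𝓝 0) := by
      intro a w rest
      induction rest with
      | nil => simp [PP]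
      | cons x rest ihr =>
        intro pre hl
        simp only [List.map_cons, List.sum_cons] at hl
        have h1 := ihr (x :: pre) (by simp only [List.map_cons, List.sum_cons]; omega)
        have h2 := tendsto_inv_sq.mul (tendsto_dsum a
          (fun k u v => GE _ (vk k) (PP k ((w ++ v ++ u) :: (pre ++ rest)))) _ x
          fun u v huv => ih _ (by simp; omega))
        rw [zero_mul] at h2
        have h3 := h1.add h2
        rw [zero_add] at h3
        refine h3.congr fun k => ?_
        rw [← map_dsum, ← smul_eq_mul ((k : ℂ)⁻¹ * (k : ℂ)⁻¹), ← map_smul, ← map_add]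
        refine congrArg _ ?_
        simp only [PP_cons, PP_append, Derivation.leibniz, F2, ← dsum_mul, smul_eq_mul,
          mul_smul_comm, mul_add, Algebra.smul_def]
        ring
    intro l
    induction l with
    | nil => simp [PP, GE_one]
    | cons w l ihl =>
      intro hl
      simp only [List.map_cons, List.sum_cons] at hl
      cases w with
      | nil =>
        have h1 := ihl (by omega)
        have : tw ([] : List ι) = 1 := tau_one _ norm_Om
        rw [List.map_cons, List.prod_cons, this, one_mul]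
        refine h1.congr' ?_
        filter_upwards [eventually_ne_atTop 0] with k hk
        have : trP k ([] : List ι) = 1 := by
          have : (k : ℂ) ≠ 0 := by exact_mod_cast hk
          simp only [trP, word_nil, Matrix.trace_one, Fintype.card_fin]
          rw [← nsmul_one (A := RR ι k), ← Nat.cast_smul_eq_nsmul ℂ, smul_smul,
            inv_mul_cancel₀ this, one_smul]
        rw [PP_cons, this, one_mul]
      | cons a w =>
        simp only [List.length_cons] at hl
        have h1 := merge a w l [] (by simp; omega)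
        have h2 := tendsto_dsum a (fun k u v => GE _ (vk k) (PP k (u :: v :: l))) _ w
          fun u v huv => ih _ (by simp; omega)
        have h3 := h2.add h1
        rw [add_zero] at h3
        convert h3 using 2 with k
        · simp [PP_cons, F1, PP]
        · simp only [List.map_cons, List.prod_cons, tw, tau_cons, tauDiff_eq, dsum_mul, mul_assoc]

end Vale.Agent.P087
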