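import Vale.Agent.P087.Conj

namespace Vale.Agent.P087

open scoped InnerProductSpace ENNReal ComplexConjugate
open Finset

variable {H : Type} [NormedAddCommGroup H] [InnerProductSpace ℂ H] [CompleteSpace H]
variable {ι : Type}

/-- Kailath Segall polynomials -/
noncomputable def th (Ω : H) (y : ι → H →L[ℂ] H) : List ι → (H →L[ℂ] H)
  | [] => 1
  | i :: w => y i * th Ω y w - ∑ l ∈ range (w.length + 1),
      tau Ω (y i * th Ω y (w.take l)) • th Ω y (w.drop l)
termination_by w => w.length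
decreasing_by all_goals (simp; try omega)

/-- cumulant coefficients -/
noncomputable def kap (Ω : H) (y : ι → H →L[ℂ] H) (i : ι) (u : List ι) : ℂ :=
  tau Ω (y i * th Ω y u)

/-- deformed polynomials -/
noncomputable def tt (κ : ι → List ι → ℂ) (y : ι → H →L[ℂ] H) : List ι → (H →L[ℂ] H)
  | [] => 1
  | i :: w => y i * tt κ y w - ∑ l ∈ range (w.length + 1), κ i (w.take l) • tt κ y (w.drop l)
termination_by w => w.length
decreasing_by all_goals (simp; try omega)

/-- biorthogonal vectors -/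
noncomputable def Psi (Ω : H) (L y : ι → H →L[ℂ] H) : List ι → H
  | [] => Ω
  | i :: w => L i (Psi Ω L y w) + y i (Psi Ω L y w) - ∑ l ∈ range (w.length + 1),
      kap Ω y i (w.take l) • Psi Ω L y (w.drop l)
termination_by w => w.length
decreasing_by all_goals (simp; try omega)

omit [CompleteSpace H] in
lemma th_nil (Ω : H) (y : ι → H →L[ℂ] H) : th Ω y [] = 1 := by rw [th]
omit [CompleteSpace H] in
lemma th_cons (Ω : H) (y : ι → H →L[ℂ] H) (i : ι) (w : List ι) : th Ω y (i :: w)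
    = y i * th Ω y w - ssum (fun u v => kap Ω y i u • th Ω y v) w := by rw [th]; rfl
omit [CompleteSpace H] in
lemma tt_nil (κ : ι → List ι → ℂ) (y : ι → H →L[ℂ] H) : tt κ y [] = 1 := by rw [tt]
omit [CompleteSpace H] in
lemma tt_cons (κ : ι → List ι → ℂ) (y : ι → H →L[ℂ] H) (i : ι) (w : List ι) : tt κ y (i :: w)
    = y i * tt κ y w - ssum (fun u v => κ i u • tt κ y v) w := by rw [tt]; rfl
omit [CompleteSpace H] in
lemma Psi_nil (Ω : H) (L y : ι → H →L[ℂ] H) : Psi Ω L y [] = Ω := by rw [Psi]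
omit [CompleteSpace H] in
lemma Psi_cons (Ω : H) (L y : ι → H →L[ℂ] H) (i : ι) (w : List ι) : Psi Ω L y (i :: w)
    = L i (Psi Ω L y w) + y i (Psi Ω L y w)
      - ssum (fun u v => kap Ω y i u • Psi Ω L y v) w := by rw [Psi]; rfl

lemma len_ind {P : List ι → Prop} (h0 : P [])
    (h : ∀ i w, (∀ v : List ι, v.length ≤ w.length → P v) → P (i :: w)) (w : List ι) : P w := by
  induction hn : w.length using Nat.strong_induction_on generalizing w with
  | _ n ih =>
    cases w with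
    | nil => exact h0
    | cons i w => exact h i w fun v hv => ih _ (by simp at hn; omega) v rfl

/-- majorant sequence -/
noncomputable def bb : ℕ → ℝ
  | 0 => 1
  | k + 1 => (1 / 8) * (bb k + ∑ l : Fin (k + 1), bb l * bb (k - l))

lemma bb_succ (k : ℕ) : bb (k + 1) = (1 / 8) * (bb k + ∑ l ∈ range (k + 1), bb l * bb (k - l)) := by
  rw [bb, Fin.sum_univ_eq_sum_range (fun l => bb l * bb (k - l))]

lemma bb_zero : bb 0 = 1 := by rw [bb]

lemma bb_nonneg (k : ℕ) : 0 ≤ bb k := by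
  induction k using Nat.strong_induction_on with
  | _ k ih =>
    cases k with
    | zero => simp [bb_zero]
    | succ k =>
      rw [bb_succ]
      have := ih k (by omega)
      have : 0 ≤ ∑ l ∈ range (k + 1), bb l * bb (k - l) := sum_nonneg fun l hl =>
        mul_nonneg (ih l (mem_range.1 hl)) (ih _ (by omega))
      positivity

lemma bb_sum (K : ℕ) : ∑ k ∈ range K, bb k ≤ 3 / 2 := by
  induction K with
  | zero => norm_num
  | succ K ih =>
    rw [sum_range_succ', bb_zero]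
    simp only [bb_succ]
    rw [← mul_sum, sum_add_distrib, sum_range_diag_flip K (fun a b => bb a * bb b)]
    have h0 : 0 ≤ ∑ k ∈ range K, bb k := sum_nonneg fun _ _ => bb_nonneg _
    have : ∑ m ∈ range K, ∑ k ∈ range (K - m), bb m * bb k
        ≤ (∑ k ∈ range K, bb k) * ∑ k ∈ range K, bb k := by
      rw [sum_mul_sum]
      exact sum_le_sum fun m _ => sum_le_sum_of_subset_of_nonneg
        (range_subset_range.2 (by omega)) fun k _ _ => mul_nonneg (bb_nonneg _) (bb_nonneg _)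
    nlinarith

omit [CompleteSpace H] in
lemma cs_sum {α : Type} (s : Finset α) (c : α → ℂ) (ξ : α → H) :
    ‖∑ a ∈ s, c a • ξ a‖ ^ 2 ≤ (∑ a ∈ s, ‖c a‖ ^ 2) * ∑ a ∈ s, ‖ξ a‖ ^ 2 := by
  refine le_trans ?_ (sum_mul_sq_le_sq_mul_sq s _ _)
  refine pow_le_pow_left₀ (norm_nonneg _) ((norm_sum_le _ _).trans (le_of_eq ?_)) 2
  simp [norm_smul]

lemma le_mul_sqrt {a b S : ℝ} (hb : 0 ≤ b) (h : a ^ 2 ≤ b ^ 2 * S) : a ≤ b * Real.sqrt S := by
  rw [← Real.sqrt_sq hb, ← Real.sqrt_mul (sq_nonneg b)]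
  exact Real.le_sqrt_of_sq_le h

lemma sq_le_of_sqrt {a b S : ℝ} (ha : 0 ≤ a) (hS : 0 ≤ S) (h : a ≤ b * Real.sqrt S) :
    a ^ 2 ≤ b ^ 2 * S := by
  have := pow_le_pow_left₀ ha h 2
  rwa [mul_pow, Real.sq_sqrt hS] at this

variable [DecidableEq ι] [Fintype ι]

/-- hypotheses of the low degree bound -/
structure LD (Ω : H) (𝔅 : Subalgebra ℂ (H →L[ℂ] H)) (L y yt : ι → H →L[ℂ] H)
    (D : H →L[ℂ] H) : Prop where
  hΩ : ‖Ω‖ = 1
  LL : ∀ i j ξ, star (L i) (L j ξ) = if i = j then ξ else 0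
  mem : ∀ i, y i ∈ 𝔅
  v1 : ∀ x ∈ 𝔅, ∀ i j ξ, star (L i) (x (L j ξ)) = tau Ω x • star (L i) (L j ξ)
  v2 : ∀ x ∈ 𝔅, ∀ i, star (L i) (x Ω) = 0
  v3 : ∀ x ∈ 𝔅, ∀ j ξ, ⟪Ω, x (L j ξ)⟫_ℂ = 0
  D1 : ‖D‖ ≤ 1
  DΩ : D Ω = Ω
  Dy : ∀ i, D * yt i = y i * D
  row : ∀ ξ : ι → H, ‖∑ i, yt i (ξ i)‖ ≤ (1 / 8) * Real.sqrt (∑ i, ‖ξ i‖ ^ 2)

namespace LD

variable {Ω : H} {𝔅 : Subalgebra ℂ (H →L[ℂ] H)} {L y yt : ι → H →L[ℂ] H} {D : H →L[ℂ] H}
  (h : LD Ω 𝔅 L y yt D)
include h

lemma th_mem (w : List ι) : th Ω y w ∈ 𝔅 := by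
  induction w using len_ind with
  | h0 => rw [th_nil]; exact one_mem _
  | h i w ih =>
    rw [th_cons]
    exact sub_mem (mul_mem (h.mem i) (ih w le_rfl))
      (sum_mem fun l _ => 𝔅.smul_mem (ih _ (by simp)) _)

lemma tau_th (w : List ι) : tau Ω (th Ω y w) = if w = [] then 1 else 0 := by
  induction w using len_ind with
  | h0 => simp [th_nil, tau_one Ω h.hΩ]
  | h i w ih =>
    rw [th_cons, tau_sub]
    have := map_ssum (tauL Ω) (fun u v => kap Ω y i u • th Ω y v) w
    rw [show tau Ω (ssum _ w) = _ from this,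
      ssum_congr (g := fun u v => kap Ω y i u * if v = [] then 1 else 0)
        (fun u v _ hv => by rw [← ih v hv]; exact tau_smul _ _ _), ssum_last _ _ (by simp)]
    simp [kap]

lemma D_tt (w : List ι) : D * tt (kap Ω y) yt w = th Ω y w * D := by
  induction w using len_ind with
  | h0 => simp [th_nil, tt_nil]
  | h i w ih =>
    rw [th_cons, tt_cons, mul_sub, sub_mul, ← mul_assoc, h.Dy, mul_assoc, ih w le_rfl, mul_assoc]
    congr 1
    unfold ssum
    rw [mul_sum, sum_mul]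
    refine sum_congr rfl fun l _ => ?_
    rw [mul_smul_comm, smul_mul_assoc, ih _ (by simp)]

lemma gen {E : Type} [AddCommGroup E] [Module ℂ E] (φ : H →ₗ[ℂ] E)
    (h1 : ∀ x ∈ 𝔅, ∀ j ξ, φ (x (L j ξ)) = tau Ω x • φ (L j ξ))
    (h2 : ∀ x ∈ 𝔅, φ (x Ω) = tau Ω x • φ Ω) (w : List ι) :
    (∀ x ∈ 𝔅, φ (x (Psi Ω L y w)) = ssum (fun u v => tau Ω (x * th Ω y u) • φ (Psi Ω L y v)) w)
    ∧ ∀ i w', w = i :: w' → φ (Psi Ω L y w) = φ (L i (Psi Ω L y w')) := by
  induction w using len_ind with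
  | h0 => exact ⟨fun x hx => by simp [Psi_nil, th_nil, h2 x hx], by simp⟩
  | h i w ih =>
    have key : ∀ x ∈ 𝔅, φ (x (Psi Ω L y (i :: w))) = tau Ω x • φ (L i (Psi Ω L y w))
        + ssum (fun u v => tau Ω (x * th Ω y (i :: u)) • φ (Psi Ω L y v)) w := by
      intro x hx
      rw [Psi_cons, map_sub, map_add, map_sub, map_add, h1 x hx, ← ContinuousLinearMap.mul_apply,
        (ih w le_rfl).1 _ (mul_mem hx (h.mem i)), map_ssum x, map_ssum φ,
        ssum_congr (f := fun u v => φ (x (kap Ω y i u • Psi Ω L y v)))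
          (g := fun u w' => ssum (fun v z =>
            (kap Ω y i u * tau Ω (x * th Ω y v)) • φ (Psi Ω L y z)) w') ?_, ssum_assoc,
        add_sub_assoc]
      · congr 1
        rw [sub_eq_iff_eq_add, ← ssum_add]
        refine ssum_congr fun u v _ _ => ?_
        rw [th_cons, mul_sub, tau_sub, sub_smul, mul_assoc]
        have e1 := map_ssum ((tauL Ω).comp (LinearMap.mulLeft ℂ x))
          (fun u v => kap Ω y i u • th Ω y v) u
        have e2 := map_ssum (LinearMap.toSpanSingleton ℂ E (φ (Psi Ω L y v)))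
          (fun u v => kap Ω y i u * tau Ω (x * th Ω y v)) u
        simp only [LinearMap.toSpanSingleton_apply] at e2
        rw [← e2, show tau Ω (x * ssum _ u) = _ from e1]
        simp [tau_smul]
      · intro u v _ hv
        rw [map_smul, map_smul, (ih v hv).1 x hx]
        have := map_ssum (DistribSMul.toAddMonoidHom E (kap Ω y i u))
          (fun u v => tau Ω (x * th Ω y u) • φ (Psi Ω L y v)) v
        simpa [smul_smul] using this
    have k1 := key 1 (one_mem _)
    simp only [one_mul, h.tau_th, tau_one Ω h.hΩ, one_smul] at k1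
    have k2 : φ (Psi Ω L y (i :: w)) = φ (L i (Psi Ω L y w)) := by simpa [ssum] using k1
    refine ⟨fun x hx => ?_, fun i' w' e => ?_⟩
    · rw [key x hx, ssum_cons, th_nil, mul_one, k2]
    · obtain ⟨rfl, rfl⟩ := List.cons.inj e; exact k2

lemma LΩ (i : ι) : star (L i) Ω = 0 := h.v2 1 (one_mem _) i

lemma Ls_Psi (i j : ι) (w : List ι) :
    star (L i) (Psi Ω L y (j :: w)) = if i = j then Psi Ω L y w else 0 := by
  rw [← h.LL]
  exact (h.gen (star (L i)).toLinearMap (fun x hx j ξ => h.v1 x hx i j ξ)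
    (fun x hx => by simp [h.v2 x hx, h.LΩ]) _).2 j w rfl

lemma gen_inner (w : List ι) :
    (∀ x ∈ 𝔅, ⟪Ω, x (Psi Ω L y w)⟫_ℂ
      = ssum (fun u v => tau Ω (x * th Ω y u) • ⟪Ω, Psi Ω L y v⟫_ℂ) w)
    ∧ ∀ i w', w = i :: w' → ⟪Ω, Psi Ω L y w⟫_ℂ = ⟪Ω, L i (Psi Ω L y w')⟫_ℂ :=
  h.gen (innerSL ℂ Ω).toLinearMap (fun x hx j ξ => by
    have := h.v3 1 (one_mem _) j ξ
    simp only [ContinuousLinearMap.one_apply] at this
    simp [h.v3 x hx, this]) (fun x hx => by simp [tau, h.hΩ]) w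

lemma inner_Psi_cons (i : ι) (w : List ι) : ⟪Ω, Psi Ω L y (i :: w)⟫_ℂ = 0 := by
  rw [(h.gen_inner _).2 i w rfl]; exact h.v3 1 (one_mem _) i _

lemma inner_x_Psi {x : H →L[ℂ] H} (hx : x ∈ 𝔅) (w : List ι) :
    ⟪Ω, x (Psi Ω L y w)⟫_ℂ = tau Ω (x * th Ω y w) := by
  rw [(h.gen_inner w).1 x hx, ssum_last _ _ (by simp [h.inner_Psi_cons])]
  simp [Psi_nil, h.hΩ]

lemma biorth (u w : List ι) : ⟪word L u Ω, Psi Ω L y w⟫_ℂ = if u = w then 1 else 0 := by
  induction u generalizing w with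
  | nil => cases w <;> simp [Psi_nil, h.hΩ, h.inner_Psi_cons]
  | cons a u ih =>
    rw [word_cons, ContinuousLinearMap.mul_apply, ← inner_star_right]
    cases w with
    | nil => simp [Psi_nil, h.LΩ]
    | cons b w =>
      rw [h.Ls_Psi]
      by_cases hab : a = b <;> simp [hab, ih]

lemma orth : Orthonormal ℂ (fun u => word L u Ω) := by
  rw [orthonormal_iff_ite]
  intro u w
  induction u generalizing w with
  | nil =>
    cases w with
    | nil => simp [h.hΩ]
    | cons b w => simpa using h.v3 1 (one_mem _) b _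
  | cons a u ih =>
    rw [word_cons, ContinuousLinearMap.mul_apply, ← inner_star_right]
    cases w with
    | nil => simp [h.LΩ]
    | cons b w =>
      rw [word_cons, ContinuousLinearMap.mul_apply, h.LL]
      by_cases hab : a = b <;> simp [hab, ih]

lemma row_step (κ : ι → List ι → ℂ) (l : ℕ) (hl : ∀ ξ : List ι → H,
      ‖∑ w ∈ Wd ι l, tt κ yt w (ξ w)‖ ≤ bb l * Real.sqrt (∑ w ∈ Wd ι l, ‖ξ w‖ ^ 2))
    (ξ : ι → List ι → H) : ‖∑ i, yt i (∑ w ∈ Wd ι l, tt κ yt w (ξ i w))‖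
      ≤ (1 / 8) * bb l * Real.sqrt (∑ i, ∑ w ∈ Wd ι l, ‖ξ i w‖ ^ 2) := by
  refine (h.row _).trans ?_
  rw [mul_assoc]
  refine mul_le_mul_of_nonneg_left ?_ (by norm_num)
  refine le_mul_sqrt (bb_nonneg l) ?_
  rw [Real.sq_sqrt (by positivity), mul_sum]
  exact sum_le_sum fun i _ => sq_le_of_sqrt (norm_nonneg _) (by positivity) (hl _)

lemma kap_bound (l : ℕ) (hl : ∀ ξ : List ι → H,
      ‖∑ w ∈ Wd ι l, tt (kap Ω y) yt w (ξ w)‖ ≤ bb l * Real.sqrt (∑ w ∈ Wd ι l, ‖ξ w‖ ^ 2)) :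
    ∑ i, ∑ w ∈ Wd ι l, ‖kap Ω y i w‖ ^ 2 ≤ ((1 / 8) * bb l) ^ 2 := by
  have h1 := h.row_step _ l hl fun i w => conj (kap Ω y i w) • Ω
  simp only [norm_smul, h.hΩ, mul_one, RCLike.norm_conj] at h1
  set S := ∑ i, ∑ w ∈ Wd ι l, ‖kap Ω y i w‖ ^ 2 with hS
  set v := ∑ i, yt i (∑ w ∈ Wd ι l, tt (kap Ω y) yt w (conj (kap Ω y i w) • Ω)) with hv
  have h2 : ⟪Ω, D v⟫_ℂ = S := by
    simp only [hv, hS, map_sum, map_smul, inner_sum, inner_smul_right]
    push_cast
    refine sum_congr rfl fun i _ => sum_congr rfl fun w _ => ?_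
    have : D (yt i (tt (kap Ω y) yt w Ω)) = (y i * th Ω y w) Ω := by
      rw [← ContinuousLinearMap.mul_apply, h.Dy, ContinuousLinearMap.mul_apply,
        ← ContinuousLinearMap.mul_apply D, h.D_tt, ContinuousLinearMap.mul_apply, h.DΩ]; rfl
    rw [this, ← Complex.conj_mul']; rfl
  have h0 : 0 ≤ S := by positivity
  have h3 : S ≤ ‖v‖ := by
    have := norm_inner_le_norm (𝕜 := ℂ) Ω (D v)
    rw [h2, h.hΩ, one_mul, Complex.norm_real, Real.norm_of_nonneg h0] at this
    exact this.trans ((D.le_of_opNorm_le h.D1 v).trans (by simp))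
  have h4 := sq_le_of_sqrt h0 h0 (h3.trans h1)
  rcases h0.eq_or_lt with h5 | h5
  · rw [← h5]; positivity
  · nlinarith

lemma row_tt (k : ℕ) : ∀ ξ : List ι → H,
    ‖∑ w ∈ Wd ι k, tt (kap Ω y) yt w (ξ w)‖ ≤ bb k * Real.sqrt (∑ w ∈ Wd ι k, ‖ξ w‖ ^ 2) := by
  induction k using Nat.strong_induction_on with
  | _ k ih =>
    intro ξ
    cases k with
    | zero => simp [sum_Wd_zero, tt_nil, bb_zero]
    | succ k =>
      have e : ∑ w ∈ Wd ι (k + 1), tt (kap Ω y) yt w (ξ w)
          = ∑ i, yt i (∑ w ∈ Wd ι k, tt (kap Ω y) yt w (ξ (i :: w)))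
            - ∑ l ∈ range (k + 1), ∑ v ∈ Wd ι (k - l), tt (kap Ω y) yt v
              (∑ p ∈ univ ×ˢ Wd ι l, kap Ω y p.1 p.2 • ξ (p.1 :: (p.2 ++ v))) := by
        rw [sum_Wd_succ]
        simp only [tt_cons, ContinuousLinearMap.sub_apply, sum_sub_distrib, map_sum,
          ContinuousLinearMap.mul_apply, map_smul, sum_product]
        congr 1
        have : ∀ i, ∑ w ∈ Wd ι k, (ssum (fun u v => kap Ω y i u • tt (kap Ω y) yt v) w) (ξ (i :: w))
            = ∑ l ∈ range (k + 1), ∑ u ∈ Wd ι l, ∑ v ∈ Wd ι (k - l),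
              kap Ω y i u • tt (kap Ω y) yt v (ξ (i :: (u ++ v))) := by
          intro i
          rw [sum_congr rfl (g := fun w => ∑ l ∈ range (k + 1),
            kap Ω y i (w.take l) • tt (kap Ω y) yt (w.drop l) (ξ (i :: w)))
            (fun w hw => by simp [ssum, mem_Wd.1 hw, ContinuousLinearMap.sum_apply]), sum_comm]
          refine sum_congr rfl fun l hl => ?_
          have := mem_range.1 hl
          conv_lhs => rw [show k = l + (k - l) by omega]
          rw [sum_Wd_add]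
          refine sum_congr rfl fun u hu => sum_congr rfl fun v _ => ?_
          rw [List.take_left' (mem_Wd.1 hu), List.drop_left' (mem_Wd.1 hu)]
        rw [sum_congr rfl fun i _ => this i, sum_comm]
        refine sum_congr rfl fun l _ => ?_
        rw [sum_comm (s := Wd ι (k - l))]
        exact sum_congr rfl fun i _ => sum_comm
      rw [e, bb_succ, sum_Wd_succ]
      set S := ∑ i, ∑ w ∈ Wd ι k, ‖ξ (i :: w)‖ ^ 2 with hS
      refine (norm_sub_le _ _).trans ?_
      rw [mul_add, add_mul]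
      refine add_le_add (h.row_step _ k (ih k (by omega)) _) ?_
      refine (norm_sum_le _ _).trans ?_
      rw [mul_sum, sum_mul]
      refine sum_le_sum fun l hl => ?_
      have hlk := mem_range.1 hl
      refine (ih (k - l) (by omega) _).trans ?_
      rw [show 1 / 8 * (bb l * bb (k - l)) * √S = bb (k - l) * ((1 / 8 * bb l) * √S) by ring]
      refine mul_le_mul_of_nonneg_left ?_ (bb_nonneg _)
      have := bb_nonneg l
      refine le_mul_sqrt (by positivity) ?_
      rw [Real.sq_sqrt (by positivity)]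
      refine (sum_le_sum fun v _ => cs_sum _ _ _).trans ?_
      rw [← mul_sum]
      refine mul_le_mul ?_ (le_of_eq ?_) (by positivity) (by positivity)
      · rw [sum_product]; exact h.kap_bound l (ih l hlk)
      · rw [hS, sum_comm, sum_product]
        refine sum_congr rfl fun i _ => ?_
        conv_rhs => rw [show k = l + (k - l) by omega]
        rw [sum_Wd_add]

lemma main {Z : ι → H →L[ℂ] H} (σ : ι → ℂ) (hZ : ∀ i, Z i = σ i • (L i + star (L i) + y i))
    {x : H →L[ℂ] H} (hx : x ∈ 𝔅) (hx0 : tau Ω x = 0) :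
    ‖EE Ω Z (star x Ω)‖ ≤ 1 / 2 * ‖star x Ω‖ := by
  let N : Submodule ℂ H := Submodule.span ℂ (Set.range (Psi Ω L y))
  have hN : ∀ w, Psi Ω L y w ∈ N := fun w => Submodule.subset_span ⟨w, rfl⟩
  have hinv : ∀ i, ∀ v ∈ N, Z i v ∈ N := by
    intro i v hv
    induction hv using Submodule.span_induction with
    | mem v hv =>
      obtain ⟨w, rfl⟩ := hv
      rw [hZ, ContinuousLinearMap.smul_apply]
      refine N.smul_mem _ ?_
      have : (L i + star (L i) + y i) (Psi Ω L y w) = Psi Ω L y (i :: w)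
          + ssum (fun u v => kap Ω y i u • Psi Ω L y v) w + star (L i) (Psi Ω L y w) := by
        rw [Psi_cons]; simp only [ContinuousLinearMap.add_apply]; abel
      rw [this]
      refine add_mem (add_mem (hN _) (sum_mem fun l _ => N.smul_mem _ (hN _))) ?_
      cases w with
      | nil => simp [Psi_nil, h.LΩ]
      | cons j w => rw [h.Ls_Psi]; split_ifs; exacts [hN _, zero_mem _]
    | zero => simp
    | add x y _ _ hx hy => rw [map_add]; exact add_mem hx hy
    | smul c x _ hx => rw [map_smul]; exact Submodule.smul_mem _ _ hx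
  have hK : K0 Ω Z ≤ N := by
    refine Submodule.span_le.2 ?_
    rintro _ ⟨w, rfl⟩
    induction w with
    | nil => simpa [Psi_nil] using hN []
    | cons a w ih => simpa using hinv a _ ih
  have hrep : ∀ X ∈ N, ∀ᶠ K in Filter.atTop, ⟪Ω, x X⟫_ℂ
      = ∑ k ∈ range K, ∑ w ∈ Wd ι k, ⟪word L w Ω, X⟫_ℂ * tau Ω (x * th Ω y w) := by
    intro X hX
    induction hX using Submodule.span_induction with
    | mem v hv =>
      obtain ⟨w, rfl⟩ := hv
      filter_upwards [Filter.eventually_gt_atTop w.length] with K hK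
      rw [h.inner_x_Psi hx, sum_eq_single_of_mem w.length (mem_range.2 hK),
        sum_eq_single_of_mem w (mem_Wd.2 rfl)]
      · simp [h.biorth]
      · intro u _ hu; simp [h.biorth, hu]
      · intro k _ hk
        refine sum_eq_zero fun u hu => ?_
        have : u ≠ w := fun e => hk (by rw [← e, mem_Wd.1 hu])
        simp [h.biorth, this]
    | zero => simp
    | add u v _ _ hu hv =>
      filter_upwards [hu, hv] with K h1 h2
      simp [inner_add_right, h1, h2, add_mul, sum_add_distrib]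
    | smul c u _ hu =>
      filter_upwards [hu] with K h1
      simp [h1, mul_sum, mul_assoc]
  refine norm_EE_le_of Ω (by positivity) fun X hX => ?_
  obtain ⟨K, hK1, hK2⟩ := ((hrep X (hK hX)).and (Filter.eventually_ge_atTop 1)).exists
  obtain ⟨K, rfl⟩ : ∃ K', K = K' + 1 := ⟨K - 1, by omega⟩
  rw [inner_star_left, hK1, sum_range_succ', sum_Wd_zero, th_nil, mul_one, hx0, mul_zero, add_zero]
  have hk : ∀ k, ‖∑ w ∈ Wd ι k, ⟪word L w Ω, X⟫_ℂ * tau Ω (x * th Ω y w)‖
      ≤ bb k * (‖star x Ω‖ * ‖X‖) := by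
    intro k
    have e : ∑ w ∈ Wd ι k, ⟪word L w Ω, X⟫_ℂ * tau Ω (x * th Ω y w)
        = ⟪star x Ω, D (∑ w ∈ Wd ι k, tt (kap Ω y) yt w (⟪word L w Ω, X⟫_ℂ • Ω))⟫_ℂ := by
      simp only [map_sum, map_smul, inner_sum, inner_smul_right]
      refine sum_congr rfl fun w _ => ?_
      rw [← ContinuousLinearMap.mul_apply D, h.D_tt, ContinuousLinearMap.mul_apply, h.DΩ,
        inner_star_left]; rfl
    rw [e]
    refine (norm_inner_le_norm _ _).trans ?_
    rw [mul_left_comm]
    refine mul_le_mul_of_nonneg_left ?_ (norm_nonneg _)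
    refine (D.le_of_opNorm_le h.D1 _).trans ?_
    rw [one_mul]
    refine (h.row_tt k _).trans (mul_le_mul_of_nonneg_left ?_ (bb_nonneg _))
    rw [Real.sqrt_le_left (norm_nonneg _)]
    simp only [norm_smul, h.hΩ, mul_one]
    exact h.orth.sum_inner_products_le X
  refine (norm_sum_le _ _).trans ((sum_le_sum fun k _ => hk _).trans ?_)
  rw [← sum_mul, mul_assoc]
  refine mul_le_mul_of_nonneg_right ?_ (by positivity)
  have := bb_sum (K + 1)
  rw [sum_range_succ', bb_zero] at this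
  linarith

end LD

end Vale.Agent.P087
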