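import Vale.Agent.P087.Dual

namespace Vale.Agent.P087

open scoped ENNReal Topology
open Finset Sum MeasureTheory Filter Set

lemma tendsto_inv_one_add : Tendsto (fun t : ℝ => (1 + t)⁻¹) atTop (𝓝 0) :=
  tendsto_inv_atTop_zero.comp (tendsto_atTop_add_const_left _ _ tendsto_id)

lemma lint_deriv {g g' : ℝ → ℝ} {T l : ℝ} (hd : ∀ x ∈ Ici T, HasDerivAt g (g' x) x)
    (h0 : ∀ x ∈ Ioi T, 0 ≤ g' x) (hl : Tendsto g atTop (𝓝 l)) :
    ∫⁻ t in Ioi T, ENNReal.ofReal (g' t) = ENNReal.ofReal (l - g T) := by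
  rw [← integral_Ioi_of_hasDerivAt_of_nonneg' hd h0 hl, ofReal_integral_eq_lintegral_ofReal
    (integrableOn_Ioi_deriv_of_nonneg' hd h0 hl)
    ((ae_restrict_iff' measurableSet_Ioi).2 (ae_of_all _ h0))]

lemma lint_sq {c T : ℝ} (hc : 0 ≤ c) (hT : 0 ≤ T) :
    ∫⁻ t in Ioi T, ENNReal.ofReal (c / (1 + t) ^ 2) = ENNReal.ofReal (c / (1 + T)) := by
  rw [lint_deriv (g := fun t => -c * (1 + t)⁻¹) (l := -c * 0) (fun x hx => ?_)
    (fun x hx => by positivity) (tendsto_inv_one_add.const_mul _)]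
  · congr 1; ring
  · have : 1 + x ≠ 0 := by have := hT.trans (mem_Ici.1 hx); positivity
    refine ((((hasDerivAt_id' x).const_add 1).fun_inv this).const_mul (-c)).congr_deriv ?_
    ring

lemma lint_log {c a : ℝ} (hc : 0 ≤ c) (ha : 0 < a) (ha' : a ≤ 1 / 2) :
    ∫⁻ t in Ioi 0, ENNReal.ofReal (c * (2 / ((t + a) * (1 + t))))
      ≤ ENNReal.ofReal (c * (4 * Real.log a⁻¹)) := by
  have h1 : 1 - a ≠ 0 := by linarith
  rw [lint_deriv (g := fun t => c * (2 / (1 - a)) * Real.log (1 - (1 - a) * (1 + t)⁻¹))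
    (l := c * (2 / (1 - a)) * Real.log (1 - (1 - a) * 0)) (fun x hx => ?_)
    (fun x hx => by have := mem_Ioi.1 hx; positivity)
    ((((tendsto_inv_one_add.const_mul _).const_sub 1).log (by simp)).const_mul _)]
  · refine ENNReal.ofReal_le_ofReal ?_
    have h2 : 0 ≤ Real.log a⁻¹ := Real.log_nonneg (one_le_inv₀ ha |>.2 (by linarith))
    have h3 : 2 / (1 - a) ≤ 4 := by rw [div_le_iff₀ (by linarith)]; linarith
    simp only [mul_zero, sub_zero, Real.log_one, add_zero, inv_one, mul_one, sub_sub_cancel,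
      zero_sub, ← mul_neg, ← Real.log_inv]
    rw [mul_assoc]; gcongr
  · have hx0 := mem_Ici.1 hx
    have h2 : 1 + x ≠ 0 := by positivity
    have h3 : 1 - (1 - a) * (1 + x)⁻¹ = (x + a) / (1 + x) := by field_simp; ring
    have h4 : x + a ≠ 0 := by positivity
    refine (((((((hasDerivAt_id' x).const_add 1).fun_inv h2).const_mul (1 - a)).const_sub 1).log
      (by rw [h3]; positivity)).const_mul (c * (2 / (1 - a)))).congr_deriv ?_
    rw [h3]; field_simp

lemma min_bound {F K t : ℝ} (ht : 0 < t) (hK : 1 ≤ K) (h1 : F ≤ t⁻¹) (h2 : F ≤ K) :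
    F - (1 + t)⁻¹ ≤ 2 / ((t + K⁻¹) * (1 + t)) := by
  have hK0 : 0 < K⁻¹ := by positivity
  rcases le_total t K⁻¹ with h | h
  · calc F - (1 + t)⁻¹ ≤ K - (1 + t)⁻¹ := by linarith
      _ ≤ 2 / ((K⁻¹ + K⁻¹) * (1 + t)) := by
        have : t * K ≤ 1 := by
          have := mul_le_mul_of_nonneg_right h (by positivity : 0 ≤ K)
          rwa [inv_mul_cancel₀ (by positivity)] at this
        rw [le_div_iff₀ (by positivity)]; field_simp; nlinarith
      _ ≤ _ := by gcongr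
  · calc F - (1 + t)⁻¹ ≤ t⁻¹ - (1 + t)⁻¹ := by linarith
      _ = 2 / ((t + t) * (1 + t)) := by field_simp; ring
      _ ≤ _ := by gcongr

theorem chiStar_bounds {q : ℝ} {m : ℕ} (hq : 10 ^ 8 ≤ q) (hm : (m : ℝ) = q ^ 4) :
    ((Fintype.card (JJ m) / 2 * Real.log (2 * Real.pi * Real.exp 1) + 1 : ℝ) : EReal)
      ≤ chiStar (Om _) (XX m) (SS m) ∧ chiStar (Om _) (XX m) (SS m) < ⊤ := by
  have hq1 : 1 ≤ q := le_trans (by norm_num) hq
  set K : ℝ := (1 + 48 * m ^ 3) ^ 2 with hK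
  have hm1 : (1 : ℝ) ≤ m := hm ▸ one_le_pow₀ hq1
  have hm3 : (1 : ℝ) ≤ m ^ 3 := one_le_pow₀ hm1
  have hK2 : 2 ≤ K := by nlinarith
  set N : ℝ := (Fintype.card (JJ m) : ℝ) with hN
  have hN' : N = m + m ^ 3 := by simp [hN]; ring
  set T : ℝ := (144 * q ^ 3) ^ 2 with hT
  let h : ℝ → ℝ := fun t => m * (2 / ((t + K⁻¹) * (1 + t)))
  have hs : ∀ t, 0 < t → ∑ i, FF m t (inl i) - m * (1 + t)⁻¹ ≤ h t := fun t ht => by
    have := sum_le_card_nsmul univ (fun i => FF m t (inl i) - (1 + t)⁻¹) _ fun i _ =>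
      min_bound ht (by linarith) (by simpa [al] using FF_le1 ht (inl i)) (FF_le2 ht i)
    simpa [h] using this
  have hneg : ∀ t, 0 < t → ∑ j, FF m t j - N / (1 + t) ≤ h t := fun t ht => by
    have := sum_le_card_nsmul univ (fun v => FF m t (inr v)) (1 + t)⁻¹ fun v _ =>
      FF_le1 ht (inr v)
    simp only [card_univ, Fintype.card_prod, Fintype.card_fin, nsmul_eq_mul, Nat.cast_mul] at this
    rw [Fintype.sum_sum_type, hN', div_eq_mul_inv]
    linarith [hs t ht]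
  have hgain : ∀ t, T < t → (m ^ 3 / 4) / (1 + t) ^ 2 ≤ (N / (1 + t) - ∑ j, FF m t j) + h t := by
    intro t ht
    have ht0 : 0 < t := lt_of_le_of_lt (by positivity) ht
    have := sum_le_card_nsmul univ (fun v => FF m t (inr v)) _ fun v _ =>
      FF_gain hq1 hm.le ht0 ht.le v
    simp only [card_univ, Fintype.card_prod, Fintype.card_fin, nsmul_eq_mul, Nat.cast_mul] at this
    rw [Fintype.sum_sum_type, hN', div_eq_mul_inv (_ + _)]
    have e : (m : ℝ) ^ 3 / 4 / (1 + t) ^ 2 = m * (m * m) * (1 / 4 / (1 + t) ^ 2) := by ring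
    linarith [hs t ht0]
  have hpos : ∀ t, 0 < t → N / (1 + t) - ∑ j, FF m t j ≤ (256 * N) / (1 + t) ^ 2 := fun t ht => by
    have := card_nsmul_le_sum univ (fun j => FF m t j) _ fun j _ => FF_ge ht j
    rw [card_univ, nsmul_eq_mul, ← hN] at this
    have h0 : 0 ≤ N := by positivity
    calc _ ≤ N / (1 + t) - N * (257 + t)⁻¹ := by linarith
      _ = (256 * N) / ((1 + t) * (257 + t)) := by field_simp; ring
      _ ≤ _ := by rw [sq]; gcongr; norm_num
  have hF0 : ∀ t, 0 ≤ ∑ j, FF m t j := fun t => sum_nonneg fun _ _ => sq_nonneg _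
  set P := ∫⁻ t in Ioi (0 : ℝ), (ENNReal.ofReal (N / (1 + t)) - Phi (Om _) (flow (XX m) (SS m) t))
    with hP
  set Q := ∫⁻ t in Ioi (0 : ℝ), (Phi (Om _) (flow (XX m) (SS m) t) - ENNReal.ofReal (N / (1 + t)))
    with hQ
  set B : ℝ := m * (4 * Real.log K⁻¹⁻¹) with hB
  have hh : ∫⁻ t in Ioi 0, ENNReal.ofReal (h t) ≤ ENNReal.ofReal B :=
    lint_log (by positivity) (by positivity) (by
      rw [inv_le_comm₀ (by positivity) (by positivity)]; simpa using hK2)
  have hQB : Q ≤ ENNReal.ofReal B := (setLIntegral_mono' measurableSet_Ioi fun t ht => by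
    have ht0 := mem_Ioi.1 ht
    rw [Phi_flow ht0, ← ENNReal.ofReal_sub _ (by positivity)]
    exact ENNReal.ofReal_le_ofReal (hneg t ht0)).trans hh
  have hPT : P ≤ ENNReal.ofReal (256 * N / (1 + 0)) := by
    rw [← lint_sq (by positivity) le_rfl]
    refine setLIntegral_mono' measurableSet_Ioi fun t ht => ?_
    have ht0 := mem_Ioi.1 ht
    rw [Phi_flow ht0, ← ENNReal.ofReal_sub _ (hF0 t)]
    exact ENNReal.ofReal_le_ofReal (hpos t ht0)
  have hsub : Ioi T ⊆ Ioi 0 := Ioi_subset_Ioi (by positivity)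
  have hG : ENNReal.ofReal ((m ^ 3 / 4) / (1 + T)) ≤ P + ENNReal.ofReal B := by
    rw [← lint_sq (by positivity) (by positivity)]
    calc _ ≤ ∫⁻ t in Ioi T, (ENNReal.ofReal (N / (1 + t)) - Phi (Om _) (flow (XX m) (SS m) t))
          + ENNReal.ofReal (h t) := setLIntegral_mono' measurableSet_Ioi fun t ht => by
            rw [Phi_flow (hsub ht), ← ENNReal.ofReal_sub _ (hF0 t)]
            exact (ENNReal.ofReal_le_ofReal (hgain t ht)).trans ENNReal.ofReal_add_le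
      _ ≤ _ := by
        rw [lintegral_add_right _ (by fun_prop)]
        exact add_le_add (lintegral_mono_set hsub) ((lintegral_mono_set hsub).trans hh)
  have hB0 : 0 ≤ B := by
    have := Real.log_nonneg (show 1 ≤ K⁻¹⁻¹ by rw [inv_inv]; linarith)
    positivity
  have hnum : 2 * B + 2 ≤ (m ^ 3 / 4) / (1 + T) := by
    have l1 : Real.log K⁻¹⁻¹ ≤ 30 * q := by
      have : K ≤ q ^ 30 := by
        rw [hK, hm, show q ^ 30 = (q ^ 3 * (q ^ 4) ^ 3) ^ 2 by ring]
        have : 49 ≤ q ^ 3 := le_trans (by linarith) (le_self_pow₀ hq1 (by norm_num))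
        rw [hm] at hm3
        gcongr; nlinarith
      rw [inv_inv]
      refine (Real.log_le_log (by positivity) this).trans ?_
      rw [Real.log_pow]
      have := Real.log_le_sub_one_of_pos (show 0 < q by positivity)
      push_cast; linarith
    have l2 : B ≤ 120 * q ^ 5 := by
      rw [hB, hm]
      calc _ ≤ q ^ 4 * (4 * (30 * q)) := by gcongr
        _ = _ := by ring
    have l3 : 1 ≤ q ^ 5 := one_le_pow₀ hq1
    have l4 : 1 ≤ q ^ 6 := one_le_pow₀ hq1
    rw [le_div_iff₀ (by positivity), hm, hT]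
    calc _ ≤ (242 * q ^ 5) * (20737 * q ^ 6) := by gcongr <;> nlinarith
      _ = (242 * 20737 * 4) * q ^ 11 / 4 := by ring
      _ ≤ q * q ^ 11 / 4 := by gcongr; linarith
      _ = _ := by ring
  obtain ⟨p, hp0, hp⟩ : ∃ p : ℝ, 0 ≤ p ∧ P = ENNReal.ofReal p :=
    ⟨P.toReal, ENNReal.toReal_nonneg,
      (ENNReal.ofReal_toReal (ne_top_of_le_ne_top ENNReal.ofReal_ne_top hPT)).symm⟩
  obtain ⟨r, hr0, hr⟩ : ∃ p : ℝ, 0 ≤ p ∧ Q = ENNReal.ofReal p :=
    ⟨Q.toReal, ENNReal.toReal_nonneg,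
      (ENNReal.ofReal_toReal (ne_top_of_le_ne_top ENNReal.ofReal_ne_top hQB)).symm⟩
  have e : chiStar (Om _) (XX m) (SS m)
      = ((1 / 2 * (p - r) + N / 2 * Real.log (2 * Real.pi * Real.exp 1) : ℝ) : EReal) := by
    rw [chiStar, ← hN, ← hP, ← hQ, hp, hr, EReal.coe_ennreal_ofReal, EReal.coe_ennreal_ofReal,
      max_eq_left hp0, max_eq_left hr0]
    norm_cast
  rw [hp, ← ENNReal.ofReal_add hp0 hB0, ENNReal.ofReal_le_ofReal_iff (by positivity)] at hG
  rw [hr, ENNReal.ofReal_le_ofReal_iff hB0] at hQB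
  rw [e]
  exact ⟨EReal.coe_le_coe_iff.2 (by linarith), EReal.coe_lt_top _⟩

end Vale.Agent.P087
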