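import Vale.Agent.P087.Chi
import Vale.Agent.P087.Star

namespace Vale.Agent.P087

open MeasureTheory Finset
open scoped ENNReal InnerProductSpace

variable {H : Type} [NormedAddCommGroup H] [InnerProductSpace ℂ H]
variable {ι κ : Type} (Ω : H) (e : κ ≃ ι)

lemma word_comp {A : Type} [Monoid A] (X : ι → A) (f : κ → ι) (w : List κ) :
    word (fun j => X (f j)) w = word X (w.map f) := by
  simp [word, Function.comp_def]

lemma isFree_reidx {X S : ι → H →L[ℂ] H} (h : IsFree Ω (algs X S)) :
    IsFree Ω (algs (fun j => X (e j)) (fun j => S (e j))) := by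
  intro l hl hc hm
  have := h (l.map fun p => (p.1.map e, p.2)) (by simpa using hl)
    (by
      rw [List.isChain_map]
      exact hc.imp fun p q hpq h => hpq (Option.map_injective e.injective h))
    (by
      simp only [List.mem_map]
      rintro _ ⟨⟨o, a⟩, hp, rfl⟩
      refine ⟨?_, (hm _ hp).2⟩
      have := (hm _ hp).1
      cases o with
      | none => rwa [algs, show (fun j => X (e j)) = X ∘ e from rfl, EquivLike.range_comp] at this
      | some j => exact this)
  simpa [Function.comp_def] using this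

variable [Fintype ι] [Fintype κ]

lemma chi_reidx (X : ι → H →L[ℂ] H) : chi Ω (fun j => X (e j)) = chi Ω X := by
  have key : ∀ R m k ε, volume (Gamma Ω (fun j => X (e j)) R m k ε) = volume (Gamma Ω X R m k ε) := by
    intro R m k ε
    have hp := volume_preserving_arrowCongr' (e.symm.prodCongr (Equiv.refl (Fin k × Fin k)))
      (MeasurableEquiv.refl ℝ) (MeasurePreserving.id _)
    rw [← hp.measure_preimage_equiv]
    congr 1
    ext x
    have hm : mats (MeasurableEquiv.arrowCongr' (e.symm.prodCongr (Equiv.refl (Fin k × Fin k)))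
        (MeasurableEquiv.refl ℝ) x) = fun j => mats x (e j) := rfl
    simp only [Gamma, Set.mem_preimage, Set.mem_setOf_eq, hm, word_comp]
    refine and_congr (e.forall_congr fun _ => Iff.rfl) ⟨fun h w h1 h2 => ?_, fun h w h1 h2 => ?_⟩
    · simpa [Function.comp_def] using h (w.map e.symm) (by simpa) (by simpa)
    · exact h _ (by simpa) (by simpa)
  simp only [chi, chiR, key, Fintype.card_congr e]

variable [DecidableEq ι] [DecidableEq κ]

omit [Fintype ι] [Fintype κ] in
lemma dsum_map {E : Type} [AddCommMonoid E] (j : κ) (f : List ι → List ι → E) (w : List κ) :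
    dsum (e j) f (w.map e) = dsum j (fun u v => f (u.map e) (v.map e)) w := by
  induction w generalizing f with
  | nil => simp
  | cons a w ih => simp [dsum_cons, ih]

omit [Fintype ι] [Fintype κ] in
lemma isConj_reidx {Z : ι → H →L[ℂ] H} {ξ : ι → H} (h : IsConj Ω Z ξ) :
    IsConj Ω (fun j => Z (e j)) (fun j => ξ (e j)) := by
  intro j
  refine ⟨?_, fun w => ?_⟩
  · rw [show (fun j => Z (e j)) = Z ∘ e from rfl, EquivLike.range_comp]; exact (h _).1
  · rw [word_comp, (h _).2, tauDiff_eq, tauDiff_eq, dsum_map]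
    simp only [word_comp]

lemma Phi_reidx_le (Z : ι → H →L[ℂ] H) : Phi Ω (fun j => Z (e j)) ≤ Phi Ω Z :=
  le_iInf₂ fun ξ hξ => iInf₂_le_of_le _ (isConj_reidx Ω e hξ)
    (by rw [e.sum_comp fun j => ‖ξ j‖ ^ 2])

lemma Phi_reidx (Z : ι → H →L[ℂ] H) : Phi Ω (fun j => Z (e j)) = Phi Ω Z :=
  le_antisymm (Phi_reidx_le Ω e Z) (by simpa using Phi_reidx_le Ω e.symm fun j => Z (e j))

lemma chiStar_reidx (X S : ι → H →L[ℂ] H) :
    chiStar Ω (fun j => X (e j)) (fun j => S (e j)) = chiStar Ω X S := by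
  have : ∀ t, Phi Ω (flow (fun j => X (e j)) (fun j => S (e j)) t) = Phi Ω (flow X S t) :=
    fun t => Phi_reidx Ω e (flow X S t)
  simp only [chiStar, this, Fintype.card_congr e]

lemma range_herm (k : ℕ) :
    Set.range (herm (k := k)) = {A : Matrix (Fin k) (Fin k) ℂ | A.IsHermitian} := by
  ext A
  exact ⟨by rintro ⟨x, rfl⟩; exact star_herm x, fun h => ⟨_, herm_surj h⟩⟩

theorem model_main {m : ℕ} {q : ℝ} (hq : 10 ^ 8 ≤ q) (hm : (m : ℝ) = q ^ 4) :
    ⊥ < chi (Om _) (XX m) ∧ chi (Om _) (XX m) < chiStar (Om _) (XX m) (SS m) ∧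
      chiStar (Om _) (XX m) (SS m) < ⊤ :=
  ⟨chi_ge, chi_le.trans_lt ((EReal.coe_lt_coe_iff.2 (by linarith)).trans_le
    (chiStar_bounds hq hm).1), (chiStar_bounds hq hm).2⟩

end Vale.Agent.P087
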