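import Vale.Agent.P087.Gue

namespace Vale.Agent.P087

open MeasureTheory ProbabilityTheory Finset Filter
open scoped NNReal ENNReal Topology ComplexConjugate InnerProductSpace

section herm
variable {k : ℕ}

lemma star_herm (x : Fin k × Fin k → ℝ) : star (herm x) = herm x := by
  ext p q
  simp [herm, Matrix.star_apply]; ring

lemma herm_surj {A : Matrix (Fin k) (Fin k) ℂ} (hA : star A = A) :
    herm (fun c => (A c.1 c.2).re + (A c.1 c.2).im) = A := by
  ext p q
  have : A q p = conj (A p q) := (congrFun (congrFun hA q) p).symm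
  simp only [herm, Matrix.of_apply, this]
  apply Complex.ext <;> simp <;> ring

lemma herm_add (x y : Fin k × Fin k → ℝ) : herm (fun c => x c + y c) = herm x + herm y := by
  ext p q; simp [herm]; ring

lemma trace_herm (x y : Fin k × Fin k → ℝ) :
    (herm x * herm y).trace = ((∑ c, x c * y c : ℝ) : ℂ) := by
  have h : ∀ p q, herm x p q * herm y q p
      = (Complex.I * x (p, q) * y (q, p) - Complex.I * x (q, p) * y (p, q)) / 2
        + (x (p, q) * y (p, q) + x (q, p) * y (q, p)) / 2 := by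
    intro p q
    simp only [herm, Matrix.of_apply]
    linear_combination (x (p, q) * y (q, p) - x (p, q) * y (p, q) - x (q, p) * y (q, p)
      + x (q, p) * y (p, q) : ℂ) / 4 * Complex.I_sq
  simp only [Matrix.trace, Matrix.diag, Matrix.mul_apply, h, sum_add_distrib, ← sum_div,
    sum_sub_distrib, Fintype.sum_prod_type]
  rw [sum_comm (f := fun p q => Complex.I * x (q, p) * y (p, q)),
    sum_comm (f := fun p q => (x (q, p) : ℂ) * y (q, p))]
  push_cast; ring

end herm

section net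

lemma exists_net (E : Type) [NormedAddCommGroup E] [NormedSpace ℝ E] [FiniteDimensional ℝ E] :
    ∃ s : Finset E, s.card ≤ 5 ^ Module.finrank ℝ E ∧ (∀ c ∈ s, ‖c‖ ≤ 2) ∧
      ∀ x, ‖x‖ ≤ 2 → ∃ c ∈ s, ‖x - c‖ ≤ 1 := by
  classical
  let P : ℕ → Prop := fun n => ∃ s : Finset E, s.card = n ∧ (∀ c ∈ s, ‖c‖ ≤ 2) ∧
    ∀ c ∈ s, ∀ d ∈ s, c ≠ d → 1 ≤ ‖c - d‖
  obtain ⟨s, h1, h2, h3⟩ := Nat.findGreatest_spec (P := P) (Nat.zero_le (5 ^ Module.finrank ℝ E))
    ⟨∅, by simp⟩
  refine ⟨s, Besicovitch.card_le_of_separated s h2 h3, h2, fun x hx => ?_⟩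
  by_contra! hc
  have hxs : x ∉ s := fun h => by have := hc x h; norm_num at this
  have a2 : ∀ c ∈ insert x s, ‖c‖ ≤ 2 := by simpa [hx] using h2
  have a3 : ∀ c ∈ insert x s, ∀ d ∈ insert x s, c ≠ d → 1 ≤ ‖c - d‖ := by
    intro c hc' d hd hne
    rcases mem_insert.1 hc' with e1 | e1 <;> rcases mem_insert.1 hd with e2 | e2
    · exact absurd (e1.trans e2.symm) hne
    · rw [e1]; exact (hc d e2).le
    · rw [norm_sub_rev, e2]; exact (hc c e1).le
    · exact h3 c e1 d e2 hne
  have := Nat.le_findGreatest (P := P) (Besicovitch.card_le_of_separated _ a2 a3) ⟨_, rfl, a2, a3⟩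
  rw [card_insert_of_notMem hxs, h1] at this
  omega

lemma norm_le_of_net {E : Type} [NormedAddCommGroup E] [InnerProductSpace ℂ E] (T : E →L[ℂ] E)
    {s : Finset E} (hs : ∀ x, ‖x‖ ≤ 2 → ∃ c ∈ s, ‖x - c‖ ≤ 1) {r : ℝ} (hr : 0 ≤ r)
    (h : ∀ c ∈ s, ∀ d ∈ s, (⟪d, T c⟫_ℂ).re ≤ r) : ‖T‖ ≤ r := by
  have h1 : ∀ c ∈ s, ‖T c‖ ≤ r := by
    intro c hc
    rcases (norm_nonneg (T c)).eq_or_lt with h0 | h0
    · rw [← h0]; exact hr
    obtain ⟨d, hd, hd'⟩ := hs (((2 / ‖T c‖ : ℝ) : ℂ) • T c) (by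
      rw [norm_smul, Complex.norm_real, Real.norm_of_nonneg (by positivity)]; field_simp; rfl)
    have e : (⟪((2 / ‖T c‖ : ℝ) : ℂ) • T c - d, T c⟫_ℂ).re = 2 * ‖T c‖ - (⟪d, T c⟫_ℂ).re := by
      rw [inner_sub_left, inner_smul_left, Complex.conj_ofReal, inner_self_eq_norm_sq_to_K,
        Complex.sub_re]
      congr 1
      simp only [Complex.coe_algebraMap]
      norm_cast; field_simp
    have := (Complex.re_le_norm _).trans
      (norm_inner_le_norm (𝕜 := ℂ) (((2 / ‖T c‖ : ℝ) : ℂ) • T c - d) (T c))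
    rw [e] at this
    nlinarith [h c hc d hd]
  have h2 : ‖T‖ ≤ (r + ‖T‖) / 2 := by
    refine ContinuousLinearMap.opNorm_le_of_unit_norm (by positivity) fun x hx => ?_
    obtain ⟨c, hc, hc'⟩ := hs ((2 : ℂ) • x) (by simp [norm_smul, hx])
    have e : (2 : ℂ) • T x = T ((2 : ℂ) • x - c) + T c := by simp
    have := congrArg norm e
    rw [norm_smul, Complex.norm_two] at this
    have h3 := norm_add_le (T ((2 : ℂ) • x - c)) (T c)
    have h4 := T.le_opNorm_of_le hc'
    linarith [h1 c hc]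
  linarith

lemma lin_form {k : ℕ} (c d : EuclideanSpace ℂ (Fin k)) (hc : ‖c‖ ≤ 2) (hd : ‖d‖ ≤ 2) :
    ∃ a : Fin k × Fin k → ℝ, ∑ z, a z ^ 2 ≤ 64 ∧ ∀ g : Fin k × Fin k → ℝ,
      (⟪d, Matrix.toEuclideanCLM (n := Fin k) (𝕜 := ℂ) (herm g) c⟫_ℂ).re = ∑ z, a z * g z := by
  refine ⟨fun z => ((1 + Complex.I) / 2 * (conj (d z.1) * c z.2)).re
    + ((1 - Complex.I) / 2 * (conj (d z.2) * c z.1)).re, ?_, fun g => ?_⟩
  · have b : ∀ (α x y : ℂ), ‖α‖ ≤ 1 → (α * (conj x * y)).re ^ 2 ≤ ‖x‖ ^ 2 * ‖y‖ ^ 2 := by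
      intro α x y hα
      rw [← sq_abs, ← mul_pow]
      refine pow_le_pow_left₀ (abs_nonneg _) ((Complex.abs_re_le_norm _).trans ?_) 2
      simp only [norm_mul, RCLike.norm_conj]
      exact mul_le_of_le_one_left (by positivity) hα
    have a1 : ‖(1 + Complex.I) / 2‖ ≤ 1 := by
      have := norm_add_le 1 Complex.I
      simp only [norm_div, norm_one, Complex.norm_I, Complex.norm_two] at this ⊢; linarith
    have a2 : ‖(1 - Complex.I) / 2‖ ≤ 1 := by
      have := norm_sub_le 1 Complex.I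
      simp only [norm_div, norm_one, Complex.norm_I, Complex.norm_two] at this ⊢; linarith
    calc _ ≤ ∑ z : Fin k × Fin k, 2 * (‖d z.1‖ ^ 2 * ‖c z.2‖ ^ 2 + ‖c z.1‖ ^ 2 * ‖d z.2‖ ^ 2) :=
          sum_le_sum fun z _ => by
            nlinarith [b _ (d z.1) (c z.2) a1, b _ (d z.2) (c z.1) a2,
              sq_nonneg (((1 + Complex.I) / 2 * (conj (d z.1) * c z.2)).re
                - ((1 - Complex.I) / 2 * (conj (d z.2) * c z.1)).re)]
      _ = 2 * (‖d‖ ^ 2 * ‖c‖ ^ 2 + ‖c‖ ^ 2 * ‖d‖ ^ 2) := by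
          simp only [← mul_sum, sum_add_distrib, Fintype.sum_prod_type, ← sum_mul,
            EuclideanSpace.norm_sq_eq]
      _ ≤ 2 * (2 ^ 2 * 2 ^ 2 + 2 ^ 2 * 2 ^ 2) := by gcongr
      _ = 64 := by norm_num
  · simp only [PiLp.inner_apply, Matrix.ofLp_toEuclideanCLM, Matrix.mulVec, dotProduct, herm,
      Matrix.of_apply, RCLike.inner_apply, sum_mul, Complex.re_sum, add_mul, sum_add_distrib,
      Fintype.sum_prod_type]
    rw [sum_comm (f := fun p q => ((1 - Complex.I) / 2 * (conj (d q) * c p)).re * g (p, q)),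
      ← sum_add_distrib]
    refine sum_congr rfl fun p _ => ?_
    rw [← sum_add_distrib]
    refine sum_congr rfl fun q _ => ?_
    rw [← Complex.re_mul_ofReal, ← Complex.re_mul_ofReal, ← Complex.add_re]
    congr 1; ring

end net

variable {ι : Type} [Fintype ι]

/-- with high probability -/
def Whp (E : ∀ k : ℕ, Set (ι × Fin k × Fin k → ℝ)) : Prop :=
  Tendsto (fun k => (gm _ (vk k)).real (E k)ᶜ) atTop (𝓝 0)

lemma Whp.of_le {E : ∀ k : ℕ, Set (ι × Fin k × Fin k → ℝ)} {f : ℕ → ℝ} (hf : Tendsto f atTop (𝓝 0))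
    (h : ∀ᶠ k in atTop, (gm _ (vk k)).real (E k)ᶜ ≤ f k) : Whp E :=
  squeeze_zero' (Eventually.of_forall fun _ => measureReal_nonneg) h hf

lemma Whp.mono {E F : ∀ k : ℕ, Set (ι × Fin k × Fin k → ℝ)} (h : Whp E) (hEF : ∀ k, E k ⊆ F k) :
    Whp F :=
  Whp.of_le h (Eventually.of_forall fun k => measureReal_mono (Set.compl_subset_compl.2 (hEF k)))

lemma Whp.inter {E F : ∀ k : ℕ, Set (ι × Fin k × Fin k → ℝ)} (h : Whp E) (h' : Whp F) :
    Whp fun k => E k ∩ F k :=
  Whp.of_le (by simpa using h.add h') (Eventually.of_forall fun k => by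
    rw [Set.compl_inter]; exact measureReal_union_le _ _)

lemma whp_all {α : Type} {s : Set α} (hs : s.Finite) {E : α → ∀ k : ℕ, Set (ι × Fin k × Fin k → ℝ)}
    (h : ∀ a ∈ s, Whp (E a)) : Whp fun k => {x | ∀ a ∈ s, x ∈ E a k} := by
  induction s, hs using Set.Finite.induction_on with
  | empty => simp [Whp]
  | insert _ _ ih =>
    refine ((h _ (Set.mem_insert _ _)).inter (ih fun a ha => h a (Set.mem_insert_of_mem _ ha))).mono
      fun k x hx => ?_
    simpa using hx

variable [DecidableEq ι]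

lemma whp_norm (j : ι) :
    Whp fun k => {x | ‖Matrix.toEuclideanCLM (n := Fin k) (𝕜 := ℂ) (mats x j)‖ ≤ 48} := by
  have hr : 625 * Real.exp (-16) < 1 := by
    have h1 : (2 : ℝ) ^ 16 ≤ Real.exp 16 := by
      rw [show (16 : ℝ) = (16 : ℕ) * 1 by norm_num, Real.exp_nat_mul]
      gcongr; linarith [Real.add_one_le_exp 1]
    rw [Real.exp_neg, ← div_eq_mul_inv, div_lt_one (Real.exp_pos _)]
    linarith
  refine Whp.of_le (tendsto_pow_atTop_nhds_zero_of_lt_one (by positivity) hr) ?_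
  filter_upwards [eventually_ne_atTop 0] with k hk
  obtain ⟨s, h1, h2, h3⟩ := exists_net (EuclideanSpace ℂ (Fin k))
  have hk' : (0 : ℝ) < k := by positivity
  calc _ ≤ (gm _ (vk k)).real (⋃ p ∈ s ×ˢ s, {x : ι × Fin k × Fin k → ℝ |
        48 ≤ (⟪p.2, Matrix.toEuclideanCLM (n := Fin k) (𝕜 := ℂ) (mats x j) p.1⟫_ℂ).re}) := by
        refine measureReal_mono (fun x hx => ?_) (measure_ne_top _ _)
        by_contra hc
        simp only [Set.mem_iUnion, Set.mem_setOf_eq, not_exists, not_le, mem_product] at hc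
        exact hx (norm_le_of_net _ h3 (by norm_num) fun c hc' d hd => (hc (c, d) ⟨hc', hd⟩).le)
    _ ≤ ∑ p ∈ s ×ˢ s, Real.exp (-16) ^ k := by
        refine (measureReal_biUnion_finset_le _ _).trans (sum_le_sum fun p hp => ?_)
        obtain ⟨a, a1, a2⟩ := lin_form p.1 p.2 (h2 _ (mem_product.1 hp).1) (h2 _ (mem_product.1 hp).2)
        have := gauss_tail (vk k) (fun c : ι × Fin k × Fin k => if c.1 = j then k * a c.2 else 0)
          (k * 48)
        simp only [Fintype.sum_prod_type (f := fun c : ι × Fin k × Fin k => _), ite_mul, zero_mul,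
          ite_pow, ne_eq, OfNat.ofNat_ne_zero, not_false_eq_true, zero_pow, sum_ite_irrel,
          sum_const_zero, sum_ite_eq', mem_univ, ↓reduceIte, mul_assoc, ← mul_sum, mul_pow,
          mul_le_mul_iff_right₀ hk'] at this
        simp only [mats, a2]
        refine this.trans ?_
        rw [← Real.exp_nat_mul, Real.exp_le_exp]
        have : ((vk k : ℝ)) * (k ^ 2 * ∑ i, a i ^ 2) = k * ∑ i, a i ^ 2 := by
          simp [vk]; field_simp
        rw [this]; nlinarith
    _ ≤ _ := by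
        rw [sum_const, card_product, nsmul_eq_mul, mul_pow]
        gcongr
        rw [finrank_real_of_complex, finrank_euclideanSpace_fin] at h1
        have : s.card * s.card ≤ 625 ^ k := by
          calc _ ≤ 5 ^ (2 * k) * 5 ^ (2 * k) := Nat.mul_le_mul h1 h1
            _ = _ := by rw [pow_mul, ← mul_pow]; norm_num
        exact_mod_cast this

omit [Fintype ι] [DecidableEq ι] in
lemma evC_trP {k : ℕ} (x : ι × Fin k × Fin k → ℝ) (w : List ι) :
    evC x (trP k w) = (word (mats x) w).trace / k := by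
  have : (fun j => (evC x).mapMatrix (Gp k j)) = mats x := by
    funext j; ext p q
    simp [Gp, evC, mats, herm]; ring
  rw [trP, map_smul, ← this, ← map_word, AlgHom.mapMatrix_apply, ← AddMonoidHom.map_trace,
    smul_eq_mul, div_eq_inv_mul]

lemma whp_word (w : List ι) {ε : ℝ} (hε : 0 < ε) :
    Whp fun k => {x | ‖(word (mats x) w).trace / k - tw w‖ < ε} := by
  let Q : ∀ k, RR ι k := fun k =>
    (trP k w - tw w • 1) * (trP k w.reverse - tw w.reverse • 1)
  have hQ : ∀ k x, evC x (Q k) = ((‖(word (mats x) w).trace / k - tw w‖ ^ 2 : ℝ) : ℂ) := by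
    intro k x
    have e1 : tw w.reverse = conj (tw w) := by rw [tw, ← star_word _ star_sc, tau_star]; rfl
    have e2 : (word (mats x) w.reverse).trace = conj (word (mats x) w).trace := by
      rw [← star_word (mats x) fun j => star_herm _, Matrix.star_eq_conjTranspose,
        Matrix.trace_conjTranspose]; rfl
    simp only [Q, map_mul, map_sub, evC_trP, map_smul, map_one, smul_eq_mul, mul_one, e1, e2]
    rw [Complex.ofReal_pow, ← Complex.mul_conj']; simp
  have hT : Tendsto (fun k => GE _ (vk k) (Q k)) atTop (𝓝 0) := by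
    have h1 := gue_conv _ [w, w.reverse] (Nat.lt_succ_self _)
    have h2 := gue_conv _ [w] (Nat.lt_succ_self _)
    have h3 := gue_conv _ [w.reverse] (Nat.lt_succ_self _)
    have := ((h1.sub (h2.const_mul (tw w.reverse))).sub (h3.const_mul (tw w))).add_const
      (tw w * tw w.reverse)
    convert this using 2 with k
    · simp [Q, PP, mul_sub, sub_mul, GE_one]; ring
    · simp; ring
  refine Whp.of_le (by simpa using hT.norm.div_const (ε ^ 2)) (Eventually.of_forall fun k => ?_)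
  have hi : Integrable (fun x : ι × Fin k × Fin k → ℝ =>
      ‖(word (mats x) w).trace / k - tw w‖ ^ 2) (gm _ (vk k)) := by
    simpa [hQ] using (integrable_evC (vk k) (Q k)).norm
  have := mul_meas_ge_le_integral_of_nonneg (ae_of_all _ fun x => sq_nonneg _) hi (ε ^ 2)
  rw [le_div_iff₀' (by positivity), GE_apply]
  simp only [hQ, integral_complex_ofReal, Complex.norm_real]
  refine le_trans ?_ (this.trans (le_abs_self _))
  exact mul_le_mul_of_nonneg_left (measureReal_mono
    (fun x hx => pow_le_pow_left₀ hε.le (not_lt.1 hx) 2) (measure_ne_top _ _)) (sq_nonneg _)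

end Vale.Agent.P087
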